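import Vale.Agent.P233.H933.Str5
import Vale.Agent.P233.RA.IfG

/-!
# P233-RCDA: the blocks `Blk_Chart` (G3 - G5) and `Blk_Dim` (G5, homogeneity of the dimension)
-/

set_option linter.all false

open Real Filter Topology Set Metric MeasureTheory
open scoped ENNReal NNReal

namespace Vale.Agent.P233.Str

universe u

/-- **Block Chart.** -/
theorem blk_chart : RG.Blk_Chart.{u} := by
  intro M _ _ κ hA hne hfin
  haveI := hne
  obtain ⟨k, p, r, f, h⟩ := exists_chart hA hfin
  exact ⟨k, p, r, f, h⟩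

/-- Propagation along geodesics. -/
theorem chain {M : Type u} [MetricSpace M] {κ : ℝ} (hA : T.IsAlexandrov M κ) {R : ℝ} (hR : 0 < R)
    {P : M → Prop} (h : ∀ x y, P x → dist x y < R → P y) {x : M} (hx : P x) (y : M) : P y := by
  have key : ∀ (n : ℕ) (y : M), dist x y ≤ n * (R / 2) → P y := by
    intro n
    induction n with
    | zero =>
      intro y hy
      have h0 : dist x y = 0 := le_antisymm (by simpa using hy) dist_nonneg
      rw [← dist_eq_zero.1 h0]
      exact hx
    | succ n ih =>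
      intro y hy
      rcases le_total (dist x y) (R / 2) with h1 | h1
      · exact h x y hx (by linarith)
      · obtain ⟨w, h2, h3⟩ := hA.geodesic x y (dist x y - R / 2) (R / 2) (by linarith)
          (by linarith) (by ring)
        refine h w y (ih w ?_) (by linarith)
        rw [h2]
        push_cast at hy
        linarith
  obtain ⟨n, hn⟩ := exists_nat_gt (dist x y / (R / 2))
  refine key n y ?_
  rw [div_lt_iff₀ (by positivity)] at hn
  exact hn.le

section

variable {M : Type u} [MetricSpace M] [MeasurableSpace M] [BorelSpace M]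

/-- The contraction estimate for small balls. -/
theorem contr_ball {κ : ℝ} (hA : T.IsAlexandrov M κ) (hR : RG.Rad M κ) :
    ∃ R C : ℝ, 0 < R ∧ 1 ≤ C ∧ ∀ (p : M) (s : ℝ), 0 < s → s ≤ R → ∀ a : ℝ, 0 ≤ a →
      (μH[a] : Measure M) (ball p R) ≤
        ENNReal.ofReal ((C / (s / R)) ^ a) * (μH[a] : Measure M) (ball p s) := by
  have h0 : 0 ≤ √κ := Real.sqrt_nonneg _
  have hR0 : 0 < 1 / (√κ + 1) := by positivity
  obtain ⟨C, hC, h⟩ := hR (1 / (√κ + 1)) hR0
  refine ⟨1 / (√κ + 1), C, hR0, hC, fun p s hs hsR a ha => ?_⟩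
  set R := 1 / (√κ + 1) with hRdef
  have ht : s / R ≤ 1 := (div_le_one hR0).2 hsR
  have ht0 : 0 < s / R := by positivity
  have hκR : √κ * R ≤ 1 := by
    rw [hRdef, mul_one_div, div_le_one (by positivity)]
    linarith
  refine h p (s / R) ⟨ht0, ht⟩ a ha (ball p R) (ball p s) subset_rfl ?_ ?_
  · intro x hx
    rw [mem_ball, dist_comm] at hx
    have h1 : √κ * dist p x ≤ √κ * R := mul_le_mul_of_nonneg_left hx.le h0
    have := Real.pi_gt_three
    linarith
  · intro x hx
    rw [mem_ball, dist_comm] at hx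
    obtain ⟨z, h1, h2⟩ := hA.geodesic p x (s / R * dist p x) ((1 - s / R) * dist p x)
      (by positivity) (mul_nonneg (by linarith) dist_nonneg) (by ring)
    refine ⟨z, ?_, h1, h2⟩
    rw [mem_ball, dist_comm, h1]
    calc s / R * dist p x < s / R * R := mul_lt_mul_of_pos_left hx ht0
      _ = s := by field_simp

theorem dimH_le_of_forall {A B : Set M} (h : ∀ a : ℝ≥0, (μH[(a : ℝ)] : Measure M) B = 0 →
    (μH[(a : ℝ)] : Measure M) A = 0) : dimH A ≤ dimH B := by
  refine ENNReal.le_of_forall_nnreal_lt fun r hr => ?_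
  by_contra hcon
  rw [not_le] at hcon
  have h1 := h r (hausdorffMeasure_of_dimH_lt hcon)
  have h2 : dimH A ≤ r := dimH_le_of_hausdorffMeasure_ne_top (by rw [h1]; exact ENNReal.zero_ne_top)
  exact absurd hr (not_lt.2 h2)

/-- All balls have the same dimension. -/
theorem dim_const [SecondCountableTopology M] {κ : ℝ} (hA : T.IsAlexandrov M κ) (hR : RG.Rad M κ)
    (x : M) {s : ℝ} (hs : 0 < s) : dimH (ball x s) = dimH (univ : Set M) := by
  obtain ⟨R, C, hR0, hC, h⟩ := contr_ball hA hR
  have h1 : ∀ (p : M) (s : ℝ), 0 < s → s ≤ R → dimH (ball p R) ≤ dimH (ball p s) := by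
    intro p s hs hsR
    refine dimH_le_of_forall fun a ha => ?_
    have h2 := h p s hs hsR a a.2
    rw [ha, mul_zero] at h2
    exact le_antisymm h2 zero_le'
  have h2 : ∀ p q : M, dist p q < R → dimH (ball p R) ≤ dimH (ball q R) := by
    intro p q hpq
    have h3 := h1 p (R - dist p q) (by linarith) (by linarith [dist_nonneg (x := p) (y := q)])
    refine h3.trans (dimH_mono (ball_subset_ball' ?_))
    linarith
  have h3 : ∀ q : M, dimH (ball q R) ≤ dimH (ball x R) := by
    intro q
    refine chain hA hR0 (P := fun q => dimH (ball q R) ≤ dimH (ball x R)) ?_ (x := x) le_rfl q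
    intro p q hp hpq
    exact (h2 q p (by rwa [dist_comm])).trans hp
  have h4 : dimH (univ : Set M) ≤ dimH (ball x R) := by
    obtain ⟨S, hS, hcov⟩ := TopologicalSpace.countable_cover_nhds
      (fun y : M => ball_mem_nhds y hR0)
    rw [← hcov, dimH_bUnion hS]
    exact iSup₂_le fun i _ => h3 i
  refine le_antisymm (dimH_mono (subset_univ _)) ?_
  rcases le_total s R with hsR | hsR
  · exact h4.trans (h1 x s hs hsR)
  · exact h4.trans (dimH_mono (ball_subset_ball hsR))

end

/-- **Block Dim.** -/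
theorem blk_dim : RG.Blk_Dim.{u} := by
  intro M _ _ _ _ _ n κ hM hR hch
  have hA := hM.alex
  obtain ⟨k, p, r, f, hr, hf, ⟨L, hL, hbl⟩, hop⟩ := hch
  obtain ⟨c, hc, hsub⟩ := hop r hr
  have h1 : ∀ s : ℝ, 0 < s → 0 < (μH[(k : ℝ)] : Measure M) (ball p s) := by
    intro s hs
    obtain ⟨c, hc, hsub⟩ := hop s hs
    exact haus_pos hf hc hsub
  have h2 : (μH[(k : ℝ)] : Measure M) (ball p r) < ∞ :=
    haus_lt_top hL (hf.isBounded_image isBounded_ball) hbl
  have hdim : ∀ (x : M) (s : ℝ), 0 < s → dimH (ball x s) = n := fun x s hs => by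
    rw [dim_const hA hR x hs, hM.dim]
  -- `k = n`
  have hkn : k = n := by
    have h3 : ((k : ℝ≥0) : ℝ≥0∞) ≤ dimH (ball p r) :=
      le_dimH_of_hausdorffMeasure_ne_zero (d := (k : ℝ≥0)) (s := ball p r) (by
        rw [NNReal.coe_natCast]
        exact (h1 r hr).ne')
    have h4 : dimH (ball p r) ≤ ((k : ℝ≥0) : ℝ≥0∞) :=
      dimH_le_of_hausdorffMeasure_ne_top (d := (k : ℝ≥0)) (by
        rw [NNReal.coe_natCast]
        exact h2.ne)
    rw [hdim p r hr] at h3 h4
    have h5 : (k : ℝ≥0∞) ≤ n := by simpa using h3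
    have h6 : (n : ℝ≥0∞) ≤ k := by simpa using h4
    exact le_antisymm (by exact_mod_cast h5) (by exact_mod_cast h6)
  subst hkn
  obtain ⟨R, C, hR0, hC, h⟩ := contr_ball hA hR
  refine ⟨⟨p, r, f, hr, hf, ⟨L, hL, hbl⟩, hop⟩, ?_, ?_, hdim⟩
  · -- positivity
    intro x
    refine chain hA hR0 (P := fun x => ∀ s : ℝ, 0 < s → 0 < (μH[(k : ℝ)] : Measure M) (ball x s))
      ?_ (x := p) h1 x
    intro x y hx hxy s hs
    have h3 : 0 < (μH[(k : ℝ)] : Measure M) (ball y R) :=
      (hx (R - dist x y) (by linarith)).trans_le (measure_mono (ball_subset_ball' (by linarith)))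
    have h4 := h y (min s R) (lt_min hs hR0) (min_le_right _ _) k (by positivity)
    have h5 := h3.trans_le h4
    refine lt_of_lt_of_le ?_ (measure_mono (ball_subset_ball (min_le_left s R)))
    by_contra h0
    rw [not_lt, nonpos_iff_eq_zero] at h0
    rw [h0, mul_zero] at h5
    exact lt_irrefl _ h5
  · -- local finiteness
    intro x
    refine chain hA hR0 (P := fun x => ∃ s > 0, (μH[(k : ℝ)] : Measure M) (ball x s) < ∞)
      ?_ (x := p) ⟨r, hr, h2⟩ x
    rintro x y ⟨s, hs, hx⟩ hxy
    refine ⟨R - dist x y, by linarith, ?_⟩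
    have h3 : (μH[(k : ℝ)] : Measure M) (ball y (R - dist x y)) ≤
        (μH[(k : ℝ)] : Measure M) (ball x R) :=
      measure_mono (ball_subset_ball' (by rw [dist_comm y x]; linarith))
    have h4 := h x (min s R) (lt_min hs hR0) (min_le_right _ _) k (by positivity)
    refine (h3.trans h4).trans_lt (ENNReal.mul_lt_top ENNReal.ofReal_lt_top ?_)
    exact (measure_mono (ball_subset_ball (min_le_left s R))).trans_lt hx

end Vale.Agent.P233.Str
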