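import Vale.Agent.P233.Gig.Defs

/-!
# P233, block F2c (i): boundary value comparison for `f'' ≤ 1 - κ f`
-/

set_option linter.all false

open MeasureTheory Filter Topology Set
open scoped ENNReal NNReal

namespace Vale.Agent.P233.H933

/-! ### the model functions -/

theorem hasDerivAt_md (κ r : ℝ) : HasDerivAt (md κ) (sn κ r) r := by
  rcases lt_trichotomy κ 0 with h | h | h
  · have hk : 0 < √(-κ) := Real.sqrt_pos.2 (by linarith)
    have hsq : √(-κ) * √(-κ) = -κ := Real.mul_self_sqrt (by linarith)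
    have e : md κ = fun r => (Real.cosh (√(-κ) * r) - 1) / (-κ) := by
      funext r; simp [md, h.ne, not_lt.2 h.le]
    have e2 : sn κ r = Real.sinh (√(-κ) * r) / √(-κ) := by
      simp [sn, h.ne, not_lt.2 h.le]
    rw [e, e2]
    have h1 := (((hasDerivAt_id r).const_mul (√(-κ))).cosh.sub_const 1).div_const (-κ)
    refine h1.congr_deriv ?_
    simp only [id, mul_one]
    rw [div_eq_div_iff (by linarith) hk.ne']
    linear_combination (Real.sinh (√(-κ) * r)) * hsq
  · subst h
    have e : md 0 = fun r => r ^ 2 / 2 := by funext r; simp [md]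
    have e2 : sn 0 r = r := by simp [sn]
    rw [e, e2]
    have h1 := (hasDerivAt_pow 2 r).div_const 2
    refine h1.congr_deriv ?_
    simp
  · have hk : 0 < √κ := Real.sqrt_pos.2 h
    have hsq : √κ * √κ = κ := Real.mul_self_sqrt h.le
    have e : md κ = fun r => (1 - Real.cos (√κ * r)) / κ := by
      funext r; simp [md, h.ne', h]
    have e2 : sn κ r = Real.sin (√κ * r) / √κ := by simp [sn, h.ne', h]
    rw [e, e2]
    have h1 := (((hasDerivAt_id r).const_mul (√κ)).cos.const_sub 1).div_const κ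
    refine h1.congr_deriv ?_
    simp only [id, mul_one]
    rw [div_eq_div_iff h.ne' hk.ne']
    linear_combination (Real.sin (√κ * r)) * hsq

theorem hasDerivAt_sn (κ r : ℝ) : HasDerivAt (sn κ) (cs κ r) r := by
  rcases lt_trichotomy κ 0 with h | h | h
  · have hk : 0 < √(-κ) := Real.sqrt_pos.2 (by linarith)
    have e : sn κ = fun r => Real.sinh (√(-κ) * r) / √(-κ) := by
      funext r; simp [sn, h.ne, not_lt.2 h.le]
    have e2 : cs κ r = Real.cosh (√(-κ) * r) := by simp [cs, h.ne, not_lt.2 h.le]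
    rw [e, e2]
    have h1 := (((hasDerivAt_id r).const_mul (√(-κ))).sinh).div_const (√(-κ))
    refine h1.congr_deriv ?_
    simp only [id, mul_one]
    field_simp
  · subst h
    have e : sn 0 = fun r => r := by funext r; simp [sn]
    have e2 : cs 0 r = 1 := by simp [cs]
    rw [e, e2]
    exact hasDerivAt_id r
  · have hk : 0 < √κ := Real.sqrt_pos.2 h
    have e : sn κ = fun r => Real.sin (√κ * r) / √κ := by funext r; simp [sn, h.ne', h]
    have e2 : cs κ r = Real.cos (√κ * r) := by simp [cs, h.ne', h]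
    rw [e, e2]
    have h1 := (((hasDerivAt_id r).const_mul (√κ)).sin).div_const (√κ)
    refine h1.congr_deriv ?_
    simp only [id, mul_one]
    field_simp

theorem cs_eq (κ r : ℝ) : cs κ r = 1 - κ * md κ r := by
  rcases lt_trichotomy κ 0 with h | h | h
  · simp only [cs, md, h.ne, not_lt.2 h.le, if_false]
    have h1 : κ * ((Real.cosh (√(-κ) * r) - 1) / -κ) = -(Real.cosh (√(-κ) * r) - 1) := by
      have : κ ≠ 0 := h.ne
      field_simp
    rw [h1]; ring
  · subst h; simp [cs, md]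
  · simp only [cs, md, h.ne', h, if_false, if_true]
    field_simp
    ring

theorem hasDerivAt_cs (κ r : ℝ) : HasDerivAt (cs κ) (-κ * sn κ r) r := by
  have e : cs κ = fun r => 1 - κ * md κ r := by funext r; exact cs_eq κ r
  rw [e]
  have h1 := ((hasDerivAt_md κ r).const_mul κ).const_sub 1
  refine h1.congr_deriv ?_
  ring

theorem md_zero (κ : ℝ) : md κ 0 = 0 := by
  rcases lt_trichotomy κ 0 with h | h | h
  · simp [md, h.ne, not_lt.2 h.le]
  · subst h; simp [md]
  · simp [md, h.ne', h]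

theorem sn_zero (κ : ℝ) : sn κ 0 = 0 := by
  rcases lt_trichotomy κ 0 with h | h | h
  · simp [sn, h.ne, not_lt.2 h.le]
  · subst h; simp [sn]
  · simp [sn, h.ne', h]

theorem continuous_md (κ : ℝ) : Continuous (md κ) :=
  continuous_iff_continuousAt.2 fun r => (hasDerivAt_md κ r).continuousAt

theorem continuous_sn (κ : ℝ) : Continuous (sn κ) :=
  continuous_iff_continuousAt.2 fun r => (hasDerivAt_sn κ r).continuousAt

theorem continuous_cs (κ : ℝ) : Continuous (cs κ) :=
  continuous_iff_continuousAt.2 fun r => (hasDerivAt_cs κ r).continuousAt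

theorem sn_pos {κ ℓ : ℝ} (hℓ : 0 < ℓ) (hκ : √κ * ℓ < Real.pi) : 0 < sn κ ℓ := by
  rcases lt_trichotomy κ 0 with h | h | h
  · have hk : 0 < √(-κ) := Real.sqrt_pos.2 (by linarith)
    simp only [sn, h.ne, not_lt.2 h.le, if_false]
    exact div_pos (Real.sinh_pos_iff.2 (mul_pos hk hℓ)) hk
  · subst h; simpa [sn] using hℓ
  · have hk : 0 < √κ := Real.sqrt_pos.2 h
    simp only [sn, h.ne', h, if_false, if_true]
    exact div_pos (Real.sin_pos_of_pos_of_lt_pi (mul_pos hk hℓ) hκ) hk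

/-! ### the comparison -/

/-- Functions with `H'' ≤ -κ H` that vanish at the end points are nonnegative. -/
theorem nonneg_core {ℓ κ : ℝ} (hℓ : 0 < ℓ) (hκ : √κ * ℓ < Real.pi) {H Φ B b : ℝ → ℝ}
    (hc : ContinuousOn H (Icc 0 ℓ)) (h0 : H 0 = 0) (h1 : H ℓ = 0)
    (hH : ∀ s ∈ Icc 0 ℓ, H s = Φ s + B s)
    (hΦ : ∀ s h, 0 < h → 0 ≤ s - h → s + h ≤ ℓ → Φ (s + h) + Φ (s - h) ≤ 2 * Φ s)
    (hB : ∀ s ∈ Ioo 0 ℓ, HasDerivAt B (b s) s)
    (hb : ∀ s ∈ Ioo 0 ℓ, HasDerivAt b (-κ * H s) s) : ∀ s ∈ Icc 0 ℓ, 0 ≤ H s := by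
  by_contra hcon
  push Not at hcon
  obtain ⟨s1, hs1, hneg⟩ := hcon
  -- the comparison function
  set k : ℝ := (√κ + Real.pi / ℓ) / 2 with hk
  have hsk : √κ < Real.pi / ℓ := (lt_div_iff₀ hℓ).2 hκ
  have hk1 : √κ < k := by rw [hk]; linarith
  have hk0 : 0 < k := lt_of_le_of_lt (Real.sqrt_nonneg _) hk1
  have hkκ : κ < k ^ 2 := Real.lt_sq_of_sqrt_lt hk1
  have hkl : k * ℓ < Real.pi := by
    have : k < Real.pi / ℓ := by rw [hk]; linarith
    exact (lt_div_iff₀ hℓ).1 this
  set ψ : ℝ → ℝ := fun s => Real.cos (k * (s - ℓ / 2)) with hψ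
  have hψpos : ∀ s ∈ Icc 0 ℓ, 0 < ψ s := by
    intro s hs
    refine Real.cos_pos_of_mem_Ioo ⟨?_, ?_⟩
    · have : -(ℓ / 2) ≤ s - ℓ / 2 := by linarith [hs.1]
      have := mul_le_mul_of_nonneg_left this hk0.le
      linarith
    · have : s - ℓ / 2 ≤ ℓ / 2 := by linarith [hs.2]
      have := mul_le_mul_of_nonneg_left this hk0.le
      linarith
  have hψc : Continuous ψ := by rw [hψ]; fun_prop
  have hqc : ContinuousOn (fun s => H s / ψ s) (Icc 0 ℓ) :=
    hc.div hψc.continuousOn fun s hs => (hψpos s hs).ne'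
  obtain ⟨x, hx, hmin⟩ := isCompact_Icc.exists_isMinOn ⟨s1, hs1⟩ hqc
  set q : ℝ := H x / ψ x with hq
  have hq0 : q < 0 := lt_of_le_of_lt (hmin hs1) (div_neg_of_neg_of_pos hneg (hψpos s1 hs1))
  have hHx : H x = q * ψ x := by rw [hq]; field_simp [(hψpos x hx).ne']
  have hge : ∀ s ∈ Icc 0 ℓ, q * ψ s ≤ H s := by
    intro s hs
    have : q ≤ H s / ψ s := hmin hs
    exact (le_div_iff₀ (hψpos s hs)).1 this
  have hx0 : x ≠ 0 := by
    rintro rfl
    rw [h0] at hHx
    have := mul_neg_of_neg_of_pos hq0 (hψpos 0 hx)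
    linarith
  have hx1 : x ≠ ℓ := by
    rintro rfl
    rw [h1] at hHx
    have := mul_neg_of_neg_of_pos hq0 (hψpos _ hx)
    linarith
  have hxo : x ∈ Ioo 0 ℓ := ⟨lt_of_le_of_ne hx.1 (Ne.symm hx0), lt_of_le_of_ne hx.2 hx1⟩
  -- the smooth part
  set E : ℝ → ℝ := fun s => B s - q * ψ s with hE
  set e : ℝ → ℝ := fun s => b s + q * (k * Real.sin (k * (s - ℓ / 2))) with he
  have hlin : ∀ s : ℝ, HasDerivAt (fun s : ℝ => k * (s - ℓ / 2)) k s := fun s => by
    have := ((hasDerivAt_id s).sub_const (ℓ / 2)).const_mul k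
    simpa using this
  have hEd : ∀ s ∈ Ioo 0 ℓ, HasDerivAt E (e s) s := by
    intro s hs
    have h2 := (hB s hs).sub (((hlin s).cos).const_mul q)
    refine h2.congr_deriv ?_
    simp only [he]
    ring
  have hed : HasDerivAt e (q * ψ x * (k ^ 2 - κ)) x := by
    have h2 := (hb x hxo).add ((((hlin x).sin).const_mul k).const_mul q)
    refine h2.congr_deriv ?_
    rw [hHx]
    simp only [hψ]
    ring
  have hneg' : q * ψ x * (k ^ 2 - κ) < 0 :=
    mul_neg_of_neg_of_pos (mul_neg_of_neg_of_pos hq0 (hψpos x hx)) (by linarith)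
  -- `e (x + h) < e (x - h)` for small `h > 0`
  have hsm : ∀ᶠ h in 𝓝[>] (0 : ℝ), e (x + h) - e (x - h) < 0 := by
    have hD : HasDerivAt (fun h : ℝ => e (x + h) - e (x - h))
        (q * ψ x * (k ^ 2 - κ) * 1 - q * ψ x * (k ^ 2 - κ) * (-1)) 0 := by
      have a1 : HasDerivAt (fun h : ℝ => x + h) 1 0 := by
        simpa using (hasDerivAt_id (0 : ℝ)).const_add x
      have a2 : HasDerivAt (fun h : ℝ => x - h) (-1) 0 := by
        simpa using (hasDerivAt_id (0 : ℝ)).const_sub x
      have b1 : HasDerivAt e (q * ψ x * (k ^ 2 - κ)) (x + 0) := by simpa using hed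
      have b2 : HasDerivAt e (q * ψ x * (k ^ 2 - κ)) (x - 0) := by simpa using hed
      exact (HasDerivAt.comp (0 : ℝ) b1 a1).sub (HasDerivAt.comp (0 : ℝ) b2 a2)
    have hD2 := hD.hasDerivWithinAt (s := Ioi 0)
    rw [hasDerivWithinAt_iff_tendsto_slope' (by simp)] at hD2
    have hlt : q * ψ x * (k ^ 2 - κ) * 1 - q * ψ x * (k ^ 2 - κ) * (-1) < 0 := by linarith
    filter_upwards [hD2.eventually_lt_const hlt, self_mem_nhdsWithin] with h hh hpos
    rw [slope_def_field] at hh
    simp only [add_zero, sub_zero, sub_self] at hh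
    have hpos' : (0 : ℝ) < h := hpos
    by_contra hc2
    push Not at hc2
    exact absurd hh (not_lt.2 (div_nonneg hc2 hpos'.le))
  obtain ⟨δ, hδ0, hδ⟩ := mem_nhdsGT_iff_exists_Ioo_subset.1 hsm
  have hδ0' : (0 : ℝ) < δ := hδ0
  set d : ℝ := min (δ / 2) (min (x / 2) ((ℓ - x) / 2)) with hd
  have hd0 : 0 < d := by
    rw [hd]
    refine lt_min (by linarith) (lt_min (by linarith [hxo.1]) (by linarith [hxo.2]))
  have hd1 : d < δ := lt_of_le_of_lt (min_le_left _ _) (by linarith)
  have hd2 : d < x := lt_of_le_of_lt ((min_le_right _ _).trans (min_le_left _ _))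
    (by linarith [hxo.1])
  have hd3 : d < ℓ - x := lt_of_le_of_lt ((min_le_right _ _).trans (min_le_right _ _))
    (by linarith [hxo.2])
  -- strict decrease of `E (x + h) + E (x - h)`
  have hdec : E (x + d) + E (x - d) < E (x + 0) + E (x - 0) := by
    have hder : ∀ h ∈ Icc 0 d, HasDerivAt (fun h : ℝ => E (x + h) + E (x - h))
        (e (x + h) * 1 + e (x - h) * (-1)) h := by
      intro h hh
      have a1 : HasDerivAt (fun h : ℝ => x + h) 1 h := by
        simpa using (hasDerivAt_id h).const_add x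
      have a2 : HasDerivAt (fun h : ℝ => x - h) (-1) h := by
        simpa using (hasDerivAt_id h).const_sub x
      have b1 := hEd (x + h) ⟨by linarith [hxo.1, hh.1], by linarith [hh.2]⟩
      have b2 := hEd (x - h) ⟨by linarith [hh.2], by linarith [hxo.2, hh.1]⟩
      exact (HasDerivAt.comp h b1 a1).add (HasDerivAt.comp h b2 a2)
    have hanti : StrictAntiOn (fun h : ℝ => E (x + h) + E (x - h)) (Icc 0 d) := by
      refine strictAntiOn_of_deriv_neg (convex_Icc 0 d)
        (fun h hh => (hder h hh).continuousAt.continuousWithinAt) fun h hh => ?_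
      rw [interior_Icc] at hh
      rw [(hder h ⟨hh.1.le, hh.2.le⟩).deriv]
      have := hδ ⟨hh.1, hh.2.trans hd1⟩
      simp only [mem_setOf_eq] at this
      linarith
    exact hanti ⟨le_rfl, hd0.le⟩ ⟨hd0.le, le_rfl⟩ hd0
  have hm := hΦ x d hd0 (by linarith) (by linarith)
  have i1 := hge (x + d) ⟨by linarith [hxo.1], by linarith⟩
  have i2 := hge (x - d) ⟨by linarith, by linarith [hxo.2]⟩
  have j1 := hH (x + d) ⟨by linarith [hxo.1], by linarith⟩
  have j2 := hH (x - d) ⟨by linarith, by linarith [hxo.2]⟩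
  have j3 := hH x hx
  simp only [hE, add_zero, sub_zero] at hdec
  linarith

/-- an a.e. antitone function has midpoint concave primitives -/
theorem ae_anti_mid {ℓ : ℝ} {g : ℝ → ℝ} (hg : IntervalIntegrable g volume 0 ℓ)
    (ha : ∀ᵐ s : ℝ, ∀ᵐ t : ℝ, 0 < s → s < t → t < ℓ → g t ≤ g s) {s h : ℝ} (hh : 0 < h)
    (h0 : 0 ≤ s - h) (h1 : s + h ≤ ℓ) :
    ∫ t in s..(s + h), g t ≤ ∫ t in (s - h)..s, g t := by
  have hℓ : 0 ≤ ℓ := by linarith
  have hi1 : IntervalIntegrable g volume s (s + h) := hg.mono_set (by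
    rw [uIcc_of_le (by linarith), uIcc_of_le hℓ]
    exact Icc_subset_Icc (by linarith) h1)
  have hi2 : IntervalIntegrable g volume (s - h) s := hg.mono_set (by
    rw [uIcc_of_le (by linarith), uIcc_of_le hℓ]
    exact Icc_subset_Icc h0 (by linarith))
  -- for a.e. `r ∈ (s-h, s)`
  have key : ∀ᵐ r : ℝ, r ∈ Ioo (s - h) s → (∫ t in s..(s + h), g t) ≤ h * g r := by
    filter_upwards [ha] with r hr hrm
    have : (∫ t in s..(s + h), g t) ≤ ∫ t in s..(s + h), g r := by
      refine intervalIntegral.integral_mono_ae_restrict (by linarith) hi1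
        intervalIntegrable_const ?_
      rw [EventuallyLE, ae_restrict_iff' measurableSet_Icc]
      have hne : ∀ᵐ t : ℝ, t ≠ s + h := by simp [ae_iff, measure_singleton]
      filter_upwards [hr, hne] with t ht hne' htm
      exact ht (by linarith [hrm.1]) (by linarith [hrm.2, htm.1])
        (lt_of_lt_of_le (lt_of_le_of_ne htm.2 hne') h1)
    rw [intervalIntegral.integral_const] at this
    simpa using this
  have h3 : (∫ r in (s - h)..s, (∫ t in s..(s + h), g t)) ≤ ∫ r in (s - h)..s, h * g r := by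
    refine intervalIntegral.integral_mono_ae_restrict (by linarith) intervalIntegrable_const
      (hi2.const_mul h) ?_
    rw [EventuallyLE, ae_restrict_iff' measurableSet_Icc]
    have hne : ∀ᵐ t : ℝ, t ≠ s := by simp [ae_iff, measure_singleton]
    have hne2 : ∀ᵐ t : ℝ, t ≠ s - h := by simp [ae_iff, measure_singleton]
    filter_upwards [key, hne, hne2] with r hr h4 h5 hrm
    exact hr ⟨lt_of_le_of_ne hrm.1 (Ne.symm h5), lt_of_le_of_ne hrm.2 h4⟩
  rw [intervalIntegral.integral_const, intervalIntegral.integral_const_mul] at h3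
  have h4 : (s - (s - h)) • (∫ t in s..(s + h), g t) = h * ∫ t in s..(s + h), g t := by
    rw [smul_eq_mul]; ring
  rw [h4] at h3
  exact le_of_mul_le_mul_left h3 hh

/-- the algebra: `H ≥ 0` is triangle comparison -/
theorem cmp_of_nonneg {κ ℓ s a b r : ℝ} (h0 : 0 ≤ s) (h1 : s ≤ ℓ)
    (hH : 0 ≤ sn κ ℓ * md κ r - sn κ (ℓ - s) * md κ a - sn κ s * md κ b - sn κ ℓ * md κ s
      + sn κ s * md κ ℓ) : T.Cmp κ a b s (ℓ - s) r := by
  have es : s + (ℓ - s) = ℓ := by ring
  rcases lt_trichotomy κ 0 with h | h | h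
  · refine ⟨fun h' => absurd h' h.ne, fun h' => absurd h' (not_lt.2 h.le), fun _ => ?_⟩
    have hk : 0 < √(-κ) := Real.sqrt_pos.2 (by linarith)
    have hκ : 0 < -κ := by linarith
    have hX : Real.sinh (√(-κ) * ℓ) * (Real.cosh (√(-κ) * r) - 1)
        - Real.sinh (√(-κ) * (ℓ - s)) * (Real.cosh (√(-κ) * a) - 1)
        - Real.sinh (√(-κ) * s) * (Real.cosh (√(-κ) * b) - 1)
        - Real.sinh (√(-κ) * ℓ) * (Real.cosh (√(-κ) * s) - 1)
        + Real.sinh (√(-κ) * s) * (Real.cosh (√(-κ) * ℓ) - 1)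
        = √(-κ) * (-κ) * (sn κ ℓ * md κ r - sn κ (ℓ - s) * md κ a - sn κ s * md κ b
          - sn κ ℓ * md κ s + sn κ s * md κ ℓ) := by
      simp only [sn, md, h.ne, not_lt.2 h.le, if_false]
      have hne : κ ≠ 0 := h.ne
      field_simp
      ring
    have hX0 := mul_nonneg (mul_pos hk hκ).le hH
    rw [← hX] at hX0
    have e1 : Real.sinh (√(-κ) * (ℓ - s)) = Real.sinh (√(-κ) * ℓ) * Real.cosh (√(-κ) * s)
        - Real.cosh (√(-κ) * ℓ) * Real.sinh (√(-κ) * s) := by
      rw [mul_sub, Real.sinh_sub]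
    rw [es]
    linarith
  · subst h
    refine ⟨fun _ => ?_, fun h' => absurd h' (lt_irrefl _), fun h' => absurd h' (lt_irrefl _)⟩
    simp only [sn, md, if_true] at hH
    rw [es]
    nlinarith [hH]
  · refine ⟨fun h' => absurd h' h.ne', fun _ => ?_, fun h' => absurd h' (not_lt.2 h.le)⟩
    have hk : 0 < √κ := Real.sqrt_pos.2 h
    have hX : Real.sin (√κ * ℓ) * (1 - Real.cos (√κ * r))
        - Real.sin (√κ * (ℓ - s)) * (1 - Real.cos (√κ * a))
        - Real.sin (√κ * s) * (1 - Real.cos (√κ * b))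
        - Real.sin (√κ * ℓ) * (1 - Real.cos (√κ * s))
        + Real.sin (√κ * s) * (1 - Real.cos (√κ * ℓ))
        = √κ * κ * (sn κ ℓ * md κ r - sn κ (ℓ - s) * md κ a - sn κ s * md κ b
          - sn κ ℓ * md κ s + sn κ s * md κ ℓ) := by
      simp only [sn, md, h.ne', h, if_false, if_true]
      have hne : κ ≠ 0 := h.ne'
      field_simp
    have hX0 := mul_nonneg (mul_pos hk h).le hH
    rw [← hX] at hX0
    have e1 : Real.sin (√κ * (ℓ - s)) = Real.sin (√κ * ℓ) * Real.cos (√κ * s)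
        - Real.cos (√κ * ℓ) * Real.sin (√κ * s) := by
      rw [mul_sub, Real.sin_sub]
    rw [es]
    linarith

/-- **Boundary value comparison.** `f = md κ ∘ r` with `f'' ≤ 1 - κ f` on `[0,ℓ]`, `√κ ℓ < π`. -/
theorem cmp_of_ode {κ ℓ : ℝ} (hℓ : 0 < ℓ) (hκ : √κ * ℓ < Real.pi) {r g : ℝ → ℝ}
    (hg : IntervalIntegrable g volume 0 ℓ)
    (hf : ∀ s ∈ Icc 0 ℓ, md κ (r s) - md κ (r 0) = ∫ t in (0 : ℝ)..s, g t)
    (hode : ∀ᵐ s : ℝ, ∀ᵐ t : ℝ, 0 < s → s < t → t < ℓ →
      g t - g s ≤ ∫ x in s..t, cs κ (r x)) :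
    ∀ s ∈ Icc 0 ℓ, T.Cmp κ (r 0) (r ℓ) s (ℓ - s) (r s) := by
  set f : ℝ → ℝ := fun s => md κ (r s) with hfdef
  have hfc : ContinuousOn f (Icc 0 ℓ) := by
    have h1 : ContinuousOn (fun s => f 0 + ∫ t in (0 : ℝ)..s, g t) (Icc 0 ℓ) := by
      refine continuousOn_const.add ?_
      have := intervalIntegral.continuousOn_primitive_interval (f := g) (a := 0) (b := ℓ)
        (μ := volume) (by
          rw [← intervalIntegrable_iff']
          exact hg)
      rwa [uIcc_of_le hℓ.le] at this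
    refine h1.congr fun s hs => ?_
    have := hf s hs
    simp only [hfdef]
    linarith
  -- continuous extension of `1 - κ f`
  set w : ℝ → ℝ := IccExtend hℓ.le ((Icc 0 ℓ).restrict fun s => 1 - κ * f s) with hw
  have hwc : Continuous w := by
    refine Continuous.Icc_extend' ?_
    exact continuousOn_iff_continuous_restrict.1 (continuousOn_const.sub
      (continuousOn_const.mul hfc))
  have hwe : ∀ s ∈ Icc 0 ℓ, w s = 1 - κ * f s := fun s hs => by
    rw [hw, IccExtend_of_mem hℓ.le _ hs]; rfl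
  set W : ℝ → ℝ := fun s => ∫ t in (0 : ℝ)..s, w t with hW
  have hWd : ∀ s, HasDerivAt W (w s) s := fun s =>
    intervalIntegral.integral_hasDerivAt_right (hwc.intervalIntegrable 0 s)
      (hwc.stronglyMeasurableAtFilter _ _) hwc.continuousAt
  have hWc : Continuous W := continuous_iff_continuousAt.2 fun s => (hWd s).continuousAt
  set A : ℝ → ℝ := fun s => ∫ t in (0 : ℝ)..s, W t with hA
  have hAd : ∀ s, HasDerivAt A (W s) s := fun s =>
    intervalIntegral.integral_hasDerivAt_right (hWc.intervalIntegrable 0 s)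
      (hWc.stronglyMeasurableAtFilter _ _) hWc.continuousAt
  have hS : 0 < sn κ ℓ := sn_pos hℓ hκ
  -- the difference is midpoint concave
  have hmi : IntervalIntegrable (fun s => g s - W s) volume 0 ℓ :=
    hg.sub (hWc.intervalIntegrable _ _)
  have hanti : ∀ᵐ s : ℝ, ∀ᵐ t : ℝ, 0 < s → s < t → t < ℓ → g t - W t ≤ g s - W s := by
    filter_upwards [hode] with s hs
    filter_upwards [hs] with t ht h0 h1 h2
    have h3 := ht h0 h1 h2
    have h4 : (∫ x in s..t, cs κ (r x)) = ∫ x in s..t, w x := by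
      refine intervalIntegral.integral_congr fun x hx => ?_
      rw [uIcc_of_le h1.le] at hx
      rw [hwe x ⟨by linarith [hx.1], by linarith [hx.2]⟩, cs_eq]
    have h5 : W t - W s = ∫ x in s..t, w x := by
      simp only [hW]
      rw [intervalIntegral.integral_interval_sub_left (hwc.intervalIntegrable _ _)
        (hwc.intervalIntegrable _ _)]
    linarith
  have hΦ : ∀ s h, 0 < h → 0 ≤ s - h → s + h ≤ ℓ →
      sn κ ℓ * (f (s + h) - A (s + h)) + sn κ ℓ * (f (s - h) - A (s - h))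
        ≤ 2 * (sn κ ℓ * (f s - A s)) := by
    intro s h hh h0 h1
    have hP : ∀ x ∈ Icc 0 ℓ, f x - A x - f 0 = ∫ t in (0 : ℝ)..x, (g t - W t) := by
      intro x hx
      rw [intervalIntegral.integral_sub (hg.mono_set (by
        rw [uIcc_of_le hx.1, uIcc_of_le hℓ.le]
        exact Icc_subset_Icc le_rfl hx.2)) (hWc.intervalIntegrable _ _), ← hf x hx]
      simp only [hA, hfdef]
      ring
    have k1 := hP (s + h) ⟨by linarith, h1⟩
    have k2 := hP (s - h) ⟨h0, by linarith⟩
    have k3 := hP s ⟨by linarith, by linarith⟩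
    have hsub : ∀ x y, x ∈ Icc 0 ℓ → y ∈ Icc 0 ℓ →
        IntervalIntegrable (fun s => g s - W s) volume x y := fun x y hx hy =>
      hmi.mono_set (by
        rw [uIcc_of_le hℓ.le]
        exact uIcc_subset_Icc hx hy)
    have m0 : (0 : ℝ) ∈ Icc 0 ℓ := ⟨le_rfl, hℓ.le⟩
    have ms : s ∈ Icc 0 ℓ := ⟨by linarith, by linarith⟩
    have mp : s + h ∈ Icc 0 ℓ := ⟨by linarith, h1⟩
    have mm : s - h ∈ Icc 0 ℓ := ⟨h0, by linarith⟩
    have k4 := ae_anti_mid hmi hanti hh h0 h1
    have k5 := intervalIntegral.integral_add_adjacent_intervals (hsub 0 s m0 ms) (hsub s (s + h) ms mp)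
    have k6 := intervalIntegral.integral_add_adjacent_intervals (hsub 0 (s - h) m0 mm)
      (hsub (s - h) s mm ms)
    have k7 : (f (s + h) - A (s + h)) + (f (s - h) - A (s - h)) ≤ 2 * (f s - A s) := by linarith
    nlinarith [mul_le_mul_of_nonneg_left k7 hS.le]
  -- the comparison
  have hcore := nonneg_core (κ := κ) hℓ hκ
    (H := fun s => sn κ ℓ * f s - sn κ (ℓ - s) * f 0 - sn κ s * f ℓ - sn κ ℓ * md κ s
      + sn κ s * md κ ℓ)
    (Φ := fun s => sn κ ℓ * (f s - A s))
    (B := fun s => sn κ ℓ * A s - sn κ (ℓ - s) * f 0 - sn κ s * f ℓ - sn κ ℓ * md κ s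
      + sn κ s * md κ ℓ)
    (b := fun s => sn κ ℓ * W s + cs κ (ℓ - s) * f 0 - cs κ s * f ℓ - sn κ ℓ * sn κ s
      + cs κ s * md κ ℓ)
    ?_ ?_ ?_ ?_ hΦ ?_ ?_
  · intro s hs
    have hH := hcore s hs
    exact cmp_of_nonneg hs.1 hs.2 hH
  · refine ContinuousOn.add (ContinuousOn.sub (ContinuousOn.sub (ContinuousOn.sub
      (continuousOn_const.mul hfc) ?_) ?_) ?_) ?_
    · exact (((continuous_sn κ).comp (continuous_const.sub continuous_id)).mul
        continuous_const).continuousOn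
    · exact ((continuous_sn κ).mul continuous_const).continuousOn
    · exact (continuous_const.mul (continuous_md κ)).continuousOn
    · exact ((continuous_sn κ).mul continuous_const).continuousOn
  · simp [sn_zero, md_zero]
  · simp only [sub_self, sn_zero]
    ring
  · intro s hs
    ring
  · intro s hs
    have d1 : HasDerivAt (fun s => sn κ (ℓ - s)) (cs κ (ℓ - s) * (-1)) s :=
      (hasDerivAt_sn κ (ℓ - s)).comp s ((hasDerivAt_id' s).const_sub ℓ)
    have := ((((hAd s).const_mul (sn κ ℓ)).sub (d1.mul_const (f 0))).sub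
      ((hasDerivAt_sn κ s).mul_const (f ℓ))).sub ((hasDerivAt_md κ s).const_mul (sn κ ℓ))
    have := this.add ((hasDerivAt_sn κ s).mul_const (md κ ℓ))
    refine this.congr_deriv ?_
    ring
  · intro s hs
    have d1 : HasDerivAt (fun s => cs κ (ℓ - s)) (-κ * sn κ (ℓ - s) * (-1)) s :=
      (hasDerivAt_cs κ (ℓ - s)).comp s ((hasDerivAt_id' s).const_sub ℓ)
    have := ((((hWd s).const_mul (sn κ ℓ)).add (d1.mul_const (f 0))).sub
      ((hasDerivAt_cs κ s).mul_const (f ℓ))).sub ((hasDerivAt_sn κ s).const_mul (sn κ ℓ))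
    have := this.add ((hasDerivAt_cs κ s).mul_const (md κ ℓ))
    refine this.congr_deriv ?_
    rw [hwe s ⟨hs.1.le, hs.2.le⟩, cs_eq κ s]
    ring

end Vale.Agent.P233.H933
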