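import Vale.Agent.P233.H933.Hinge

/-!
# P233, block F3c: comparison along one geodesic from each point, first variation and Gram
matrices give triangle comparison
-/

open MeasureTheory Filter Topology Real Set
open scoped ENNReal NNReal

namespace Vale.Agent.P233.H933

variable {M : Type*} [MetricSpace M]

/-- `σ` is a geodesic from `w` to `x`, parametrised by arc length on `[0, |wx|]`. -/
def Geo (w x : M) (σ : ℝ → M) : Prop :=
  σ 0 = w ∧ σ (dist w x) = x ∧
    ∀ s ∈ Icc 0 (dist w x), ∀ t ∈ Icc 0 (dist w x), dist (σ s) (σ t) = |s - t|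

theorem nonneg_of_right {φ : ℝ → ℝ} {φ' L : ℝ} (hL : 0 < L)
    (h : HasDerivWithinAt φ φ' (Ioi 0) 0) (h0 : φ 0 = 0) (hn : ∀ s ∈ Ioo 0 L, 0 ≤ φ s) :
    0 ≤ φ' := by
  rw [hasDerivWithinAt_iff_tendsto_slope' (by simp)] at h
  refine ge_of_tendsto h ?_
  have : Ioo (0 : ℝ) L ∈ 𝓝[>] (0 : ℝ) := Ioo_mem_nhdsGT hL
  filter_upwards [this] with s hs
  rw [slope_def_field, h0, sub_zero, sub_zero]
  exact div_nonneg (hn s hs) hs.1.le

/-- comparison along a geodesic and the first variation give the hinge inequality -/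
theorem hinge_of_cmp {κ a b L G : ℝ} {r : ℝ → ℝ} (hL : 0 < L) (hr0 : r 0 = a)
    (hC : ∀ s ∈ Icc 0 L, T.Cmp κ a b s (L - s) (r s))
    (hQ : HasDerivWithinAt r (-G) (Ioi 0) 0) : Hinge κ a L b G := by
  refine ⟨fun h0 => ?_, fun h0 => ?_, fun h0 => ?_⟩
  · have h1 : HasDerivWithinAt (fun s => L * r s ^ 2 - ((L - s) * a ^ 2 + s * b ^ 2
        - s * (L - s) * L)) (L * (2 * a * -G) - (-1 * a ^ 2 + 1 * b ^ 2
        - (1 * (L - 0) + 0 * -1) * L)) (Ioi 0) 0 := by
      have e1 : HasDerivWithinAt (fun s => L * r s ^ 2) (L * (2 * a * -G)) (Ioi 0) 0 := by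
        have := (hQ.pow 2).const_mul L
        simpa [hr0] using this
      have e2 : HasDerivWithinAt (fun s : ℝ => (L - s) * a ^ 2) (-1 * a ^ 2) (Ioi 0) 0 :=
        ((hasDerivWithinAt_id (0 : ℝ) (Ioi 0)).const_sub L).mul_const (a ^ 2)
      have e3 : HasDerivWithinAt (fun s : ℝ => s * b ^ 2) (1 * b ^ 2) (Ioi 0) 0 :=
        (hasDerivWithinAt_id (0 : ℝ) (Ioi 0)).mul_const (b ^ 2)
      have e4 : HasDerivWithinAt (fun s : ℝ => s * (L - s) * L)
          ((1 * (L - 0) + 0 * -1) * L) (Ioi 0) 0 :=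
        ((hasDerivWithinAt_id (0 : ℝ) (Ioi 0)).mul
          ((hasDerivWithinAt_id (0 : ℝ) (Ioi 0)).const_sub L)).mul_const L
      exact e1.sub ((e2.add e3).sub e4)
    have h2 := nonneg_of_right hL h1 (by simp [hr0]) fun s hs => by
      have := (hC s ⟨hs.1.le, hs.2.le⟩).1 h0
      have e : s + (L - s) = L := by ring
      rw [e] at this
      linarith
    nlinarith [h2, hL]
  · have hk : 0 < √κ := Real.sqrt_pos.2 h0
    have h1 : HasDerivWithinAt (fun s => sin (√κ * (L - s)) * cos (√κ * a)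
        + sin (√κ * s) * cos (√κ * b) - sin (√κ * L) * cos (√κ * r s))
        (cos (√κ * (L - 0)) * (√κ * -1) * cos (√κ * a)
          + cos (√κ * 0) * (√κ * 1) * cos (√κ * b)
          - sin (√κ * L) * (-sin (√κ * r 0) * (√κ * -G))) (Ioi 0) 0 := by
      have e1 : HasDerivWithinAt (fun s => sin (√κ * L) * cos (√κ * r s))
          (sin (√κ * L) * (-sin (√κ * r 0) * (√κ * -G))) (Ioi 0) 0 :=
        ((hQ.const_mul (√κ)).cos).const_mul _
      have e2 : HasDerivWithinAt (fun s : ℝ => sin (√κ * (L - s)) * cos (√κ * a))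
          (cos (√κ * (L - 0)) * (√κ * -1) * cos (√κ * a)) (Ioi 0) 0 :=
        ((((hasDerivWithinAt_id (0 : ℝ) (Ioi 0)).const_sub L).const_mul (√κ)).sin).mul_const _
      have e3 : HasDerivWithinAt (fun s : ℝ => sin (√κ * s) * cos (√κ * b))
          (cos (√κ * 0) * (√κ * 1) * cos (√κ * b)) (Ioi 0) 0 :=
        (((hasDerivWithinAt_id (0 : ℝ) (Ioi 0)).const_mul (√κ)).sin).mul_const _
      exact (e2.add e3).sub e1
    have h2 := nonneg_of_right hL h1 (by simp [hr0]) fun s hs => by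
      have := (hC s ⟨hs.1.le, hs.2.le⟩).2.1 h0
      have e : s + (L - s) = L := by ring
      rw [e] at this
      linarith
    rw [hr0, sub_zero, mul_zero, cos_zero] at h2
    have h3 : 0 ≤ √κ * (cos (√κ * b) - (cos (√κ * a) * cos (√κ * L)
        + sin (√κ * a) * sin (√κ * L) * G)) := by
      linear_combination h2
    have h4 := nonneg_of_mul_nonneg_right h3 hk
    linarith
  · have hk : 0 < √(-κ) := Real.sqrt_pos.2 (by linarith)
    have h1 : HasDerivWithinAt (fun s => sinh (√(-κ) * L) * cosh (√(-κ) * r s)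
        - (sinh (√(-κ) * (L - s)) * cosh (√(-κ) * a)
        + sinh (√(-κ) * s) * cosh (√(-κ) * b)))
        (sinh (√(-κ) * L) * (sinh (√(-κ) * r 0) * (√(-κ) * -G))
          - (cosh (√(-κ) * (L - 0)) * (√(-κ) * -1) * cosh (√(-κ) * a)
          + cosh (√(-κ) * 0) * (√(-κ) * 1) * cosh (√(-κ) * b))) (Ioi 0) 0 := by
      have e1 : HasDerivWithinAt (fun s => sinh (√(-κ) * L) * cosh (√(-κ) * r s))
          (sinh (√(-κ) * L) * (sinh (√(-κ) * r 0) * (√(-κ) * -G))) (Ioi 0) 0 :=
        ((hQ.const_mul (√(-κ))).cosh).const_mul _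
      have e2 : HasDerivWithinAt (fun s : ℝ => sinh (√(-κ) * (L - s)) * cosh (√(-κ) * a))
          (cosh (√(-κ) * (L - 0)) * (√(-κ) * -1) * cosh (√(-κ) * a)) (Ioi 0) 0 :=
        ((((hasDerivWithinAt_id (0 : ℝ) (Ioi 0)).const_sub L).const_mul
          (√(-κ))).sinh).mul_const _
      have e3 : HasDerivWithinAt (fun s : ℝ => sinh (√(-κ) * s) * cosh (√(-κ) * b))
          (cosh (√(-κ) * 0) * (√(-κ) * 1) * cosh (√(-κ) * b)) (Ioi 0) 0 :=
        (((hasDerivWithinAt_id (0 : ℝ) (Ioi 0)).const_mul (√(-κ))).sinh).mul_const _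
      exact e1.sub (e2.add e3)
    have h2 := nonneg_of_right hL h1 (by simp [hr0]) fun s hs => by
      have := (hC s ⟨hs.1.le, hs.2.le⟩).2.2 h0
      have e : s + (L - s) = L := by ring
      rw [e] at this
      linarith
    rw [hr0, sub_zero, mul_zero, cosh_zero] at h2
    have h3 : 0 ≤ √(-κ) * (cosh (√(-κ) * a) * cosh (√(-κ) * L)
        - sinh (√(-κ) * a) * sinh (√(-κ) * L) * G - cosh (√(-κ) * b)) := by
      linear_combination h2
    have h4 := nonneg_of_mul_nonneg_right h3 hk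
    linarith

variable [MeasurableSpace M] {m : Measure M}

/-- **Hinge inequalities and Gram matrices, for fixed end points and a.e. vertex, give a space with
curvature `≥ κ`.** -/
theorem isAlexandrov_of_hinge_ae (hm : ∀ x : M, ∀ r > 0, m (Metric.ball x r) ≠ 0) {κ : ℝ}
    {G : M → M → M → ℝ}
    (geo : ∀ x y : M, ∀ s t : ℝ, 0 ≤ s → 0 ≤ t → s + t = dist x y →
      ∃ w, dist x w = s ∧ dist w y = t)
    (hinge : ∀ p x : M, ∀ᵐ w ∂m, w ≠ x → w ≠ p →
      √κ * (dist w p + dist w x + dist p x) < 2 * π →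
      Hinge κ (dist w p) (dist w x) (dist p x) (G p x w))
    (hGram : ∀ p x y : M, ∀ᵐ w ∂m, Gram3 (G p x w) (G p y w) (G x y w)) :
    T.IsAlexandrov M κ := by
  have hk : 0 ≤ √κ := Real.sqrt_nonneg _
  refine ⟨geo, fun p x y w hw hper => ?_⟩
  rcases (dist_nonneg (x := x) (y := w)).eq_or_lt with hs | hs
  · have hwx : x = w := dist_eq_zero.1 hs.symm
    subst hwx
    refine ⟨fun _ => ?_, fun _ => ?_, fun _ => ?_⟩ <;> simp
  rcases (dist_nonneg (x := w) (y := y)).eq_or_lt with ht | ht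
  · have hwy : w = y := dist_eq_zero.1 ht.symm
    subst hwy
    refine ⟨fun _ => ?_, fun _ => ?_, fun _ => ?_⟩ <;> simp
  by_cases hwp : w = p
  · subst hwp
    rw [dist_comm w x]
    have e1 : √κ * (dist x w + dist w y) = √κ * dist x w + √κ * dist w y := by ring
    have e2 : √(-κ) * (dist x w + dist w y) = √(-κ) * dist x w + √(-κ) * dist w y := by ring
    refine ⟨fun _ => ?_, fun _ => ?_, fun _ => ?_⟩
    · rw [dist_self]; apply le_of_eq; ring
    · rw [dist_self, mul_zero, cos_zero, e1, sin_add]; apply le_of_eq; ring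
    · rw [dist_self, mul_zero, cosh_zero, e2, sinh_add]; apply le_of_eq; ring
  have hwx : w ≠ x := fun h => by rw [h, dist_self] at hs; exact lt_irrefl _ hs
  have hwy : w ≠ y := fun h => by rw [h, dist_self] at ht; exact lt_irrefl _ ht
  have hxy : dist x y ≤ dist p x + dist p y := by
    rw [dist_comm p x]; exact dist_triangle _ _ _
  have e1 : √κ * (dist w p + dist w x + dist p x) < 2 * π := by
    refine lt_of_le_of_lt (mul_le_mul_of_nonneg_left ?_ hk) hper
    have := dist_triangle w y p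
    rw [dist_comm y p] at this
    rw [← hw, dist_comm w x]
    linarith
  have e2 : √κ * (dist w p + dist w y + dist p y) < 2 * π := by
    refine lt_of_le_of_lt (mul_le_mul_of_nonneg_left ?_ hk) hper
    have := dist_triangle w x p
    rw [dist_comm x p, dist_comm w x] at this
    rw [← hw]
    linarith
  have e3 : √κ * (dist w x + dist w y + dist x y) < 2 * π := by
    refine lt_of_le_of_lt (mul_le_mul_of_nonneg_left ?_ hk) hper
    rw [dist_comm w x]
    linarith
  have hpi : √κ * (dist x w + dist w y) < π := by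
    rw [dist_comm w x, hw] at e3
    have : √κ * (dist x w + dist w y + dist x y) = 2 * (√κ * dist x y) := by
      rw [hw]; ring
    rw [hw]
    linarith
  -- approximation of `w`
  have hall : ∀ᵐ v ∂m, Gram3 (G p x v) (G p y v) (G x y v) ∧
      (v ≠ x → v ≠ p → √κ * (dist v p + dist v x + dist p x) < 2 * π →
        Hinge κ (dist v p) (dist v x) (dist p x) (G p x v)) ∧
      (v ≠ y → v ≠ p → √κ * (dist v p + dist v y + dist p y) < 2 * π →
        Hinge κ (dist v p) (dist v y) (dist p y) (G p y v)) ∧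
      (v ≠ y → v ≠ x → √κ * (dist v x + dist v y + dist x y) < 2 * π →
        Hinge κ (dist v x) (dist v y) (dist x y) (G x y v)) := by
    filter_upwards [hGram p x y, hinge p x, hinge p y, hinge x y] with v a1 a2 a3 a4
    exact ⟨a1, a2, a3, a4⟩
  have key : ∀ n : ℕ, ∃ v : M, dist v w < 1 / ((n : ℝ) + 1) ∧
      Gram3 (G p x v) (G p y v) (G x y v) ∧
      (v ≠ x → v ≠ p → √κ * (dist v p + dist v x + dist p x) < 2 * π →
        Hinge κ (dist v p) (dist v x) (dist p x) (G p x v)) ∧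
      (v ≠ y → v ≠ p → √κ * (dist v p + dist v y + dist p y) < 2 * π →
        Hinge κ (dist v p) (dist v y) (dist p y) (G p y v)) ∧
      (v ≠ y → v ≠ x → √κ * (dist v x + dist v y + dist x y) < 2 * π →
        Hinge κ (dist v x) (dist v y) (dist x y) (G x y v)) := fun n =>
    exists_ball_of_ae hm hall w (by positivity)
  choose V hV hG h1 h2 h3 using key
  have tV : Tendsto V atTop (𝓝 w) := tendsto_iff_dist_tendsto_zero.2
    (squeeze_zero (fun _ => dist_nonneg) (fun n => (hV n).le)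
      tendsto_one_div_add_atTop_nhds_zero_nat)
  have hmem : ∀ n, (G p x (V n), G p y (V n), G x y (V n)) ∈
      (Set.Icc (-1 : ℝ) 1) ×ˢ ((Set.Icc (-1 : ℝ) 1) ×ˢ (Set.Icc (-1 : ℝ) 1)) := by
    intro n
    obtain ⟨_, a1, a2, a3⟩ := (hG n).swap
    exact ⟨abs_le.1 a1, abs_le.1 a2, abs_le.1 a3⟩
  obtain ⟨⟨a, b, d⟩, -, φ, hφ, hlim⟩ :=
    ((isCompact_Icc.prod (isCompact_Icc.prod isCompact_Icc)).tendsto_subseq hmem)
  have la : Tendsto (fun n => G p x (V (φ n))) atTop (𝓝 a) :=
    (continuous_fst.tendsto _).comp hlim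
  have lb : Tendsto (fun n => G p y (V (φ n))) atTop (𝓝 b) :=
    ((continuous_fst.comp continuous_snd).tendsto _).comp hlim
  have ld : Tendsto (fun n => G x y (V (φ n))) atTop (𝓝 d) :=
    ((continuous_snd.comp continuous_snd).tendsto _).comp hlim
  have sV := tV.comp hφ.tendsto_atTop
  have lim1 : ∀ {q z : M} {e : ℕ → ℝ} {e0 : ℝ}, w ≠ z → w ≠ q →
      Tendsto e atTop (𝓝 e0) → √κ * (dist w q + dist w z + dist q z) < 2 * π →
      (∀ n, V (φ n) ≠ z → V (φ n) ≠ q →
        √κ * (dist (V (φ n)) q + dist (V (φ n)) z + dist q z) < 2 * π →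
        Hinge κ (dist (V (φ n)) q) (dist (V (φ n)) z) (dist q z) (e n)) →
      Hinge κ (dist w q) (dist w z) (dist q z) e0 := by
    intro q z e e0 hz hq he hlt hallq
    have t1 : Tendsto (fun n => dist (V (φ n)) q) atTop (𝓝 (dist w q)) :=
      sV.dist tendsto_const_nhds
    have t2 : Tendsto (fun n => dist (V (φ n)) z) atTop (𝓝 (dist w z)) :=
      sV.dist tendsto_const_nhds
    have t4 : Tendsto (fun n => √κ * (dist (V (φ n)) q + dist (V (φ n)) z + dist q z))
        atTop (𝓝 (√κ * (dist w q + dist w z + dist q z))) :=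
      tendsto_const_nhds.mul ((t1.add t2).add tendsto_const_nhds)
    obtain ⟨N, hN⟩ := eventually_atTop.1 ((t4.eventually_lt_const hlt).and
      ((sV.eventually_ne hz).and (sV.eventually_ne hq)))
    have sh : Tendsto (fun n : ℕ => n + N) atTop atTop := tendsto_add_atTop_nat N
    refine Hinge.tendsto (t1.comp sh) (t2.comp sh) tendsto_const_nhds (he.comp sh)
      fun n => ?_
    obtain ⟨c1, c2, c3⟩ := hN _ (Nat.le_add_left N n)
    exact hallq (n + N) c2 c3 c1
  have g1 := lim1 hwx hwp la e1 fun n => h1 (φ n)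
  have g2 := lim1 hwy hwp lb e2 fun n => h2 (φ n)
  have g3 := lim1 hwy hwx ld e3 fun n => h3 (φ n)
  have hG' : Gram3 a b d := Gram3.tendsto la lb ld fun n => hG (φ n)
  rw [dist_comm w p, dist_comm w x] at g1
  rw [dist_comm w p] at g2
  rw [dist_comm w x] at g3
  refine cmp_of_hinges hs.le ht.le (fun _ => hpi.le) g1 g2 (hG'.opp ?_)
  rw [← hw] at g3
  exact le_neg_one_of_hinge hs ht (fun _ => hpi) g3

/-- **The closed conditions (P), (Q) and Gram give a space with curvature `≥ κ`.** -/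
theorem isAlexandrov_of_closed (hm : ∀ x : M, ∀ r > 0, m (Metric.ball x r) ≠ 0) {κ : ℝ}
    {G : M → M → M → ℝ}
    (geo : ∀ x y : M, ∀ s t : ℝ, 0 ≤ s → 0 ≤ t → s + t = dist x y →
      ∃ w, dist x w = s ∧ dist w y = t)
    (hP : ∀ w p x : M, √κ * (dist w p + dist p x + dist w x) < 2 * π →
      ∃ σ : ℝ → M, Geo w x σ ∧ ∀ s ∈ Icc 0 (dist w x),
        T.Cmp κ (dist p w) (dist p x) s (dist w x - s) (dist p (σ s)))
    (hQ : ∀ p x : M, ∀ᵐ w ∂m, ∀ σ : ℝ → M, Geo w x σ → w ≠ x → w ≠ p →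
      Tendsto (fun s => (dist p (σ s) - dist p w) / s) (𝓝[>] 0) (𝓝 (-G p x w)))
    (hGram : ∀ p x y : M, ∀ᵐ w ∂m, Gram3 (G p x w) (G p y w) (G x y w)) :
    T.IsAlexandrov M κ := by
  refine isAlexandrov_of_hinge_ae hm geo (fun p x => ?_) hGram
  filter_upwards [hQ p x] with w hw hwx hwp hper
  obtain ⟨σ, hσ, hC⟩ := hP w p x (by rw [show dist w p + dist p x + dist w x
    = dist w p + dist w x + dist p x by ring]; exact hper)
  have h1 := hw σ hσ hwx hwp
  have hL : 0 < dist w x := dist_pos.2 hwx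
  rw [dist_comm w p]
  refine hinge_of_cmp (r := fun s => dist p (σ s)) hL (by simp [hσ.1]) hC ?_
  rw [hasDerivWithinAt_iff_tendsto_slope' (by simp)]
  refine h1.congr fun s => ?_
  rw [slope_def_field, sub_zero]
  simp only [hσ.1]

end Vale.Agent.P233.H933
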