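import Vale.Agent.P233.Gig.Defs
import Vale.Agent.P233.H933.Close

/-!
# P233, block F34 in the form of `Gig/Defs.lean`
-/

open MeasureTheory Filter Topology Real Set
open scoped ENNReal NNReal

universe u

namespace Vale.Agent.P233

variable {M : Type u} [MetricSpace M] [MeasurableSpace M] {m : Measure M}

/-- **F34.** Radial concavity, first variation and geodesics give a space with curvature `≥ κ`
in the sense of Alexandrov. -/
theorem isAlexandrov_of_radConc [m.IsOpenPosMeasure] {κ : ℝ} {G : M → M → M → ℝ}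
    (geo : ∀ x y : M, ∀ s t : ℝ, 0 ≤ s → 0 ≤ t → s + t = dist x y →
      ∃ w, dist x w = s ∧ dist w y = t)
    (hP : RadConc M κ) (hQ : FirstVar m G) : T.IsAlexandrov M κ := by
  have hm : ∀ x : M, ∀ r > 0, m (Metric.ball x r) ≠ 0 := fun x r hr =>
    (Metric.isOpen_ball.measure_pos m ⟨x, Metric.mem_ball_self hr⟩).ne'
  refine H933.isAlexandrov_of_hinge_ae (G := G) hm geo (fun p x => ?_) fun p x y => ?_
  · filter_upwards [hQ.1 p x] with w hw hwx hwp hper
    obtain ⟨σ, hσ, hC⟩ := hP w p x (by
      rw [dist_comm x w, show dist w p + dist p x + dist w x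
        = dist w p + dist w x + dist p x by ring]
      exact hper)
    have h1 := hw σ hwx hσ
    have hL : 0 < dist w x := dist_pos.2 hwx
    have h0 : σ 0 = w := (dist_eq_zero.1 (hσ 0 ⟨le_rfl, hL.le⟩).1).symm
    rw [dist_comm w p]
    refine H933.hinge_of_cmp (r := fun s => dist p (σ s)) hL (by simp [h0]) hC ?_
    rw [hasDerivWithinAt_iff_tendsto_slope' (by simp)]
    refine h1.congr fun s => ?_
    rw [slope_def_field, sub_zero]
    simp only [h0]
  · filter_upwards [hQ.2 p x y, hQ.2 y p x] with w h1 h2 s t r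
    have h3 := h1.2.2 s t r
    rw [h2.2.1] at h3
    linarith

end Vale.Agent.P233
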