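import Vale.Agent.P233.Gig.Main
import Vale.Agent.P233.H933.F34

/-! P233: the part F34 of `Gig/Main.lean`. -/

open MeasureTheory Filter Topology Set

universe u

namespace Vale.Agent.P233.Gig

theorem partF34 : PartF34.{u} := by
  intro M _ _ _ _ _ m κ hm _ hgeo hP hG
  obtain ⟨G, hG⟩ := hG
  haveI := hm
  exact isAlexandrov_of_radConc hgeo hP hG

end Vale.Agent.P233.Gig
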