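import Vale.Agent.P233.H933.Str4
import Mathlib.MeasureTheory.Measure.Lebesgue.Basic

/-!
# P233-RCDA, G5: the Hausdorff measure of an `n`-dimensional Alexandrov space

* `exists_chart` : a complete Alexandrov space of finite Hausdorff dimension has a bi-Lipschitz
  chart to an open subset of `ℝᵏ`.
* `haus_ball` : from the contraction estimate: `k = n` and `0 < ℋⁿ(B) < ∞` for all balls.
-/

set_option linter.all false

open Real Filter Topology Set Metric MeasureTheory
open scoped ENNReal NNReal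

namespace Vale.Agent.P233.Str

open Vale.Agent.P233.AB

universe u

variable {M : Type u} [MetricSpace M]

section meas

variable [MeasurableSpace M] [BorelSpace M] {k : ℕ}

theorem haus_pos {f : M → Fin k → ℝ} (hf : LipschitzWith 1 f) {v : Fin k → ℝ} {c : ℝ} (hc : 0 < c)
    {A : Set M} (h : ball v c ⊆ f '' A) : 0 < (μH[(k : ℝ)] : Measure M) A := by
  have h1 := hf.hausdorffMeasure_image_le (d := (k : ℝ)) (by positivity) A
  rw [ENNReal.coe_one, ENNReal.one_rpow, one_mul] at h1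
  refine lt_of_lt_of_le ?_ h1
  refine lt_of_lt_of_le ?_ (measure_mono h)
  have e : (μH[(k : ℝ)] : Measure (Fin k → ℝ)) = volume := by
    have := hausdorffMeasure_pi_real (ι := Fin k)
    rwa [Fintype.card_fin] at this
  rw [e]
  exact measure_ball_pos _ _ hc

theorem haus_lt_top {f : M → Fin k → ℝ} {A : Set M} {L : ℝ} (hL : 0 < L)
    (hb : Bornology.IsBounded (f '' A))
    (h : ∀ x ∈ A, ∀ y ∈ A, dist x y ≤ L * dist (f x) (f y)) : (μH[(k : ℝ)] : Measure M) A < ∞ := by
  classical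
  rcases A.eq_empty_or_nonempty with hA | hA
  · rw [hA, measure_empty]
    exact ENNReal.zero_lt_top
  haveI : Nonempty M := ⟨hA.some⟩
  have hinj : InjOn f A := fun x hx y hy hxy => by
    have := h x hx y hy
    rw [hxy, dist_self, mul_zero] at this
    exact dist_le_zero.1 this
  let g := Function.invFunOn f A
  have hg : ∀ x ∈ A, g (f x) = x := fun x hx => hinj.leftInvOn_invFunOn hx
  have hlip : LipschitzOnWith ⟨L, hL.le⟩ g (f '' A) := by
    refine LipschitzOnWith.of_dist_le_mul ?_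
    rintro _ ⟨x, hx, rfl⟩ _ ⟨y, hy, rfl⟩
    rw [hg x hx, hg y hy]
    exact h x hx y hy
  have him : g '' (f '' A) = A := by
    ext x
    constructor
    · rintro ⟨_, ⟨y, hy, rfl⟩, rfl⟩
      rwa [hg y hy]
    · intro hx
      exact ⟨f x, ⟨x, hx, rfl⟩, hg x hx⟩
  have h1 := hlip.hausdorffMeasure_image_le (d := (k : ℝ)) (by positivity)
  rw [him] at h1
  refine lt_of_le_of_lt h1 (ENNReal.mul_lt_top (ENNReal.rpow_lt_top_of_nonneg (by positivity)
    ENNReal.coe_ne_top) ?_)
  have e : (μH[(k : ℝ)] : Measure (Fin k → ℝ)) = volume := by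
    have := hausdorffMeasure_pi_real (ι := Fin k)
    rwa [Fintype.card_fin] at this
  rw [e]
  exact hb.measure_lt_top

end meas

/-- **Existence of a chart.** -/
theorem exists_chart [CompleteSpace M] [Nonempty M] {κ : ℝ} (hA : T.IsAlexandrov M κ)
    (hfin : dimH (univ : Set M) < ⊤) :
    ∃ (k : ℕ) (p : M) (r : ℝ) (f : M → Fin k → ℝ), 0 < r ∧ LipschitzWith 1 f ∧
      (∃ L > 0, ∀ x ∈ ball p r, ∀ y ∈ ball p r, dist x y ≤ L * dist (f x) (f y)) ∧
      ∀ s > 0, ∃ c > 0, ball (f p) c ⊆ f '' ball p s := by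
  borelize M
  obtain ⟨ρ, hR⟩ := exists_rad hA
  let P : ℕ → Prop := fun k => ∀ δ > 0, ∃ (a b : Fin k → M) (p : M), IsStr κ ρ δ a b p
  have hP0 : P 0 := fun δ _ => ⟨fun i => i.elim0, fun i => i.elim0, Classical.arbitrary M,
    ⟨fun i => i.elim0, fun i => i.elim0, fun i => i.elim0, fun i => i.elim0, fun i => i.elim0,
      fun i => i.elim0, fun i => i.elim0, fun i => i.elim0⟩⟩
  have small : ∀ (k : ℕ) (η : ℝ), 0 < η → ∃ δ > 0, δ ≤ η ∧ 2 * √(2 * δ) < η ∧
      k * (δ + √(2 * δ)) < 1 / 2 := by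
    intro k η hη
    have h1 : Tendsto (fun δ : ℝ => 2 * √(2 * δ)) (𝓝 0) (𝓝 (2 * √(2 * 0))) :=
      (Continuous.tendsto (by fun_prop) 0)
    have h2 : Tendsto (fun δ : ℝ => k * (δ + √(2 * δ))) (𝓝 0) (𝓝 (k * (0 + √(2 * 0)))) :=
      (Continuous.tendsto (by fun_prop) 0)
    simp only [mul_zero, Real.sqrt_zero, add_zero] at h1 h2
    have h3 : ∀ᶠ δ in 𝓝[>] (0 : ℝ), 0 < δ ∧ δ ≤ η ∧ 2 * √(2 * δ) < η ∧ k * (δ + √(2 * δ)) < 1 / 2 := by
      filter_upwards [self_mem_nhdsWithin,
        eventually_nhdsWithin_of_eventually_nhds (h1.eventually (gt_mem_nhds hη)),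
        eventually_nhdsWithin_of_eventually_nhds (h2.eventually (gt_mem_nhds (by norm_num : (0:ℝ) < 1 / 2))),
        eventually_nhdsWithin_of_eventually_nhds (ge_mem_nhds hη)] with δ g1 g2 g3 g4
      exact ⟨g1, g4, g2, g3⟩
    obtain ⟨δ, g1, g2, g3, g4⟩ := h3.exists
    exact ⟨δ, g1, g2, g3, g4⟩
  have hbound : ∀ k : ℕ, P k → (k : ℝ≥0∞) ≤ dimH (univ : Set M) := by
    intro k hk
    obtain ⟨δ, hδ, -, -, hkδ⟩ := small k 1 one_pos
    obtain ⟨a, b, p, hS⟩ := hk δ hδ
    obtain ⟨c, hc, hsub⟩ := open_of_isStr hR hS hδ.le hkδ 1 one_pos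
    have h1 := haus_pos (lipschitz_stm a) hc hsub
    have h2 : ((k : ℝ≥0) : ℝ≥0∞) ≤ dimH (ball p 1) :=
      le_dimH_of_hausdorffMeasure_ne_zero (d := (k : ℝ≥0)) (by
        rw [NNReal.coe_natCast]
        exact h1.ne')
    rw [ENNReal.coe_natCast] at h2
    exact h2.trans (dimH_mono (subset_univ _))
  obtain ⟨k, hk, hk'⟩ : ∃ k, P k ∧ ¬ P (k + 1) := by
    by_contra hcon
    push Not at hcon
    have hall : ∀ k, P k := fun k => by
      induction k with
      | zero => exact hP0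
      | succ k ih => exact hcon k ih
    obtain ⟨N, hN⟩ := ENNReal.exists_nat_gt hfin.ne
    exact absurd (hbound N (hall N)) (not_le.2 hN)
  simp only [P] at hk'
  push Not at hk'
  obtain ⟨δ', hδ', hmax⟩ := hk'
  obtain ⟨δ, hδ, hδδ', hδ2, hkδ⟩ := small k δ' hδ'
  obtain ⟨a, b, p, hS⟩ := hk δ hδ
  obtain ⟨r, hr, L, hL, hch⟩ := chart_of_isStr hR hS hδ.le hδδ' hδ2 hmax
  exact ⟨k, p, r, stm a, hr, lipschitz_stm a, ⟨L, hL, hch⟩, open_of_isStr hR hS hδ.le hkδ⟩

variable [MeasurableSpace M] [BorelSpace M]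

/-- **The Hausdorff measure of an `n`-dimensional Alexandrov space**, from the contraction
estimate `hG2`. -/
theorem haus_ball [CompleteSpace M] {κ : ℝ} (hA : T.IsAlexandrov M κ) {n : ℕ}
    (hn : dimH (univ : Set M) = n)
    (hG2 : ∀ (p : M) (s R : ℝ), 0 < s → s ≤ R → ∃ C : ℝ≥0, ∀ a : ℝ, 0 ≤ a →
      (μH[a] : Measure M) (ball p R) ≤ (C : ℝ≥0∞) ^ a * (μH[a] : Measure M) (ball p s)) (x : M)
    {s : ℝ} (hs : 0 < s) : 0 < (μH[(n : ℝ)] : Measure M) (ball x s) ∧
      (μH[(n : ℝ)] : Measure M) (ball x s) < ∞ := by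
  haveI : Nonempty M := ⟨x⟩
  obtain ⟨k, p, r, f, hr, hf, ⟨L, hL, hch⟩, hop⟩ := exists_chart hA (by
    rw [hn]
    exact ENNReal.natCast_lt_top n)
  obtain ⟨c, hc, hsub⟩ := hop r hr
  have h1 : 0 < (μH[(k : ℝ)] : Measure M) (ball p r) := haus_pos hf hc hsub
  have h2 : (μH[(k : ℝ)] : Measure M) (ball p r) < ∞ :=
    haus_lt_top hL (hf.isBounded_image isBounded_ball) hch
  -- `k = n`
  have hkn : k = n := by
    have h3 : ((k : ℝ≥0) : ℝ≥0∞) ≤ dimH (univ : Set M) :=
      (le_dimH_of_hausdorffMeasure_ne_zero (d := (k : ℝ≥0)) (s := ball p r) (by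
        rw [NNReal.coe_natCast]
        exact h1.ne')).trans (dimH_mono (subset_univ _))
    have h4 : dimH (univ : Set M) ≤ ((k : ℝ≥0) : ℝ≥0∞) := by
      have e : (univ : Set M) = ⋃ m : ℕ, ball p (r + m) := by
        symm
        rw [eq_univ_iff_forall]
        intro y
        obtain ⟨m, hm⟩ := exists_nat_gt (dist y p)
        exact mem_iUnion.2 ⟨m, by rw [mem_ball]; linarith⟩
      rw [e, dimH_iUnion]
      refine iSup_le fun m => ?_
      obtain ⟨C, hC⟩ := hG2 p r (r + m) hr (by linarith [m.cast_nonneg (α := ℝ)])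
      refine dimH_le_of_hausdorffMeasure_ne_top (d := (k : ℝ≥0)) ?_
      rw [NNReal.coe_natCast]
      exact ((hC k (by positivity)).trans_lt (ENNReal.mul_lt_top
        (ENNReal.rpow_lt_top_of_nonneg (by positivity) ENNReal.coe_ne_top) h2)).ne
    rw [hn] at h3 h4
    have h5 : (k : ℝ≥0∞) ≤ n := by simpa using h3
    have h6 : (n : ℝ≥0∞) ≤ k := by simpa using h4
    exact le_antisymm (by exact_mod_cast h5) (by exact_mod_cast h6)
  subst hkn
  constructor
  · have hR0 : s ≤ s + (r + dist p x) := by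
      have : 0 ≤ dist p x := dist_nonneg
      linarith
    obtain ⟨C, hC⟩ := hG2 x s (s + (r + dist p x)) hs hR0
    have h3 := hC k (by positivity)
    have h4 : ball p r ⊆ ball x (s + (r + dist p x)) := by
      intro y hy
      rw [mem_ball] at hy ⊢
      have := dist_triangle y p x
      linarith
    have h5 := h1.trans_le ((measure_mono h4).trans h3)
    by_contra h0
    rw [not_lt, nonpos_iff_eq_zero] at h0
    rw [h0, mul_zero] at h5
    exact lt_irrefl _ h5
  · have hR0 : r ≤ r + (s + dist x p) := by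
      have : 0 ≤ dist x p := dist_nonneg
      linarith
    obtain ⟨C, hC⟩ := hG2 p r (r + (s + dist x p)) hr hR0
    have h4 : ball x s ⊆ ball p (r + (s + dist x p)) := by
      intro y hy
      rw [mem_ball] at hy ⊢
      have := dist_triangle y x p
      linarith
    exact ((measure_mono h4).trans (hC k (by positivity))).trans_lt (ENNReal.mul_lt_top
      (ENNReal.rpow_lt_top_of_nonneg (by positivity) ENNReal.coe_ne_top) h2)

end Vale.Agent.P233.Str
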