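import Vale.Agent.P233.AB.StmtAB

/-!
# P233, block F34: hinge inequality and Gram matrices give triangle comparison

`c w p x` stands for `⟨∇d_p, ∇d_x⟩(w)`.
-/

open MeasureTheory Filter Topology Real
open scoped ENNReal NNReal

namespace Vale.Agent.P233.H933

/-- The hinge inequality in the model plane of curvature `κ`: sides `a = |wp|`, `b = |wx|`,
`d = |px|`, and `c` is the cosine of the angle at `w`. -/
def Hinge (κ a b d c : ℝ) : Prop :=
  (κ = 0 → d ^ 2 ≤ a ^ 2 + b ^ 2 - 2 * a * b * c) ∧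
  (0 < κ → cos (√κ * a) * cos (√κ * b) + sin (√κ * a) * sin (√κ * b) * c ≤ cos (√κ * d)) ∧
  (κ < 0 → cosh (√(-κ) * d)
    ≤ cosh (√(-κ) * a) * cosh (√(-κ) * b) - sinh (√(-κ) * a) * sinh (√(-κ) * b) * c)

/-- three unit vectors with the scalar products `a, b, c` have a positive semidefinite
Gram matrix -/
def Gram3 (a b c : ℝ) : Prop :=
  ∀ s t u : ℝ, 0 ≤ s ^ 2 + t ^ 2 + u ^ 2 + 2 * s * t * a + 2 * s * u * b + 2 * t * u * c

theorem Gram3.swap {a b c : ℝ} (h : Gram3 a b c) : Gram3 a b c ∧ |a| ≤ 1 ∧ |b| ≤ 1 ∧ |c| ≤ 1 := by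
  refine ⟨h, ?_, ?_, ?_⟩ <;> rw [abs_le] <;> constructor
  · have := h 1 1 0; linarith
  · have := h 1 (-1) 0; linarith
  · have := h 1 0 1; linarith
  · have := h 1 0 (-1); linarith
  · have := h 0 1 1; linarith
  · have := h 0 1 (-1); linarith

/-- if the last two vectors are opposite -/
theorem Gram3.opp {a b c : ℝ} (h : Gram3 a b c) (hc : c ≤ -1) : a + b = 0 := by
  by_contra hne
  have h1 : ∀ t : ℝ, 0 ≤ 1 + 2 * t * (a + b) := by
    intro t
    have := h 1 t t
    nlinarith [sq_nonneg t]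
  have h2 := h1 (-1 / (a + b))
  have h3 : -1 / (a + b) * (a + b) = -1 := by field_simp
  linarith

theorem Hinge.tendsto {κ : ℝ} {a b d c : ℕ → ℝ} {a0 b0 d0 c0 : ℝ}
    (ha : Tendsto a atTop (𝓝 a0)) (hb : Tendsto b atTop (𝓝 b0)) (hd : Tendsto d atTop (𝓝 d0))
    (hc : Tendsto c atTop (𝓝 c0)) (h : ∀ n, Hinge κ (a n) (b n) (d n) (c n)) :
    Hinge κ a0 b0 d0 c0 := by
  refine ⟨fun h0 => ?_, fun h0 => ?_, fun h0 => ?_⟩
  · refine le_of_tendsto_of_tendsto' (hd.pow 2) ?_ fun n => (h n).1 h0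
    exact ((ha.pow 2).add (hb.pow 2)).sub (((tendsto_const_nhds.mul ha).mul hb).mul hc)
  · refine le_of_tendsto_of_tendsto' (b := (atTop : Filter ℕ)) ?_ ?_ fun n => (h n).2.1 h0
    · refine Tendsto.add (Tendsto.mul ?_ ?_) (Tendsto.mul (Tendsto.mul ?_ ?_) hc)
      · exact (continuous_cos.tendsto _).comp (tendsto_const_nhds.mul ha)
      · exact (continuous_cos.tendsto _).comp (tendsto_const_nhds.mul hb)
      · exact (continuous_sin.tendsto _).comp (tendsto_const_nhds.mul ha)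
      · exact (continuous_sin.tendsto _).comp (tendsto_const_nhds.mul hb)
    · exact (continuous_cos.tendsto _).comp (tendsto_const_nhds.mul hd)
  · refine le_of_tendsto_of_tendsto' (b := (atTop : Filter ℕ)) ?_ ?_ fun n => (h n).2.2 h0
    · exact (continuous_cosh.tendsto _).comp (tendsto_const_nhds.mul hd)
    · refine Tendsto.sub (Tendsto.mul ?_ ?_) (Tendsto.mul (Tendsto.mul ?_ ?_) hc)
      · exact (continuous_cosh.tendsto _).comp (tendsto_const_nhds.mul ha)
      · exact (continuous_cosh.tendsto _).comp (tendsto_const_nhds.mul hb)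
      · exact (continuous_sinh.tendsto _).comp (tendsto_const_nhds.mul ha)
      · exact (continuous_sinh.tendsto _).comp (tendsto_const_nhds.mul hb)

theorem Gram3.tendsto {a b c : ℕ → ℝ} {a0 b0 c0 : ℝ}
    (ha : Tendsto a atTop (𝓝 a0)) (hb : Tendsto b atTop (𝓝 b0)) (hc : Tendsto c atTop (𝓝 c0))
    (h : ∀ n, Gram3 (a n) (b n) (c n)) : Gram3 a0 b0 c0 := by
  intro s t u
  refine ge_of_tendsto' (x := (atTop : Filter ℕ)) (b := 0) ?_ fun n => h n s t u
  exact ((tendsto_const_nhds.add (tendsto_const_nhds.mul ha)).add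
    (tendsto_const_nhds.mul hb)).add (tendsto_const_nhds.mul hc)

/-- The algebra: two hinges with supplementary angles give triangle comparison.
`r = |pw|`, `s = |xw|`, `t = |wy|`, `a = |px|`, `b = |py|`. -/
theorem cmp_of_hinges {κ a b s t r c c' : ℝ} (hs : 0 ≤ s) (ht : 0 ≤ t)
    (hp : 0 < κ → √κ * (s + t) ≤ π)
    (h1 : Hinge κ r s a c) (h2 : Hinge κ r t b c') (hc : c + c' = 0) :
    T.Cmp κ a b s t r := by
  have hc' : c' = -c := by linarith
  subst hc'
  refine ⟨fun h0 => ?_, fun h0 => ?_, fun h0 => ?_⟩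
  · have e1 := h1.1 h0
    have e2 := h2.1 h0
    nlinarith [mul_le_mul_of_nonneg_left e1 ht, mul_le_mul_of_nonneg_left e2 hs]
  · have e1 := h1.2.1 h0
    have e2 := h2.2.1 h0
    have hk : 0 ≤ √κ := Real.sqrt_nonneg _
    have hst : √κ * (s + t) = √κ * s + √κ * t := by ring
    have hs0 : 0 ≤ √κ * s := mul_nonneg hk hs
    have ht0 : 0 ≤ √κ * t := mul_nonneg hk ht
    have hle := hp h0
    have hs1 : 0 ≤ sin (√κ * s) := sin_nonneg_of_nonneg_of_le_pi hs0 (by linarith)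
    have ht1 : 0 ≤ sin (√κ * t) := sin_nonneg_of_nonneg_of_le_pi ht0 (by linarith)
    have f1 := mul_le_mul_of_nonneg_left e1 ht1
    have f2 := mul_le_mul_of_nonneg_left e2 hs1
    rw [hst, sin_add]
    nlinarith [f1, f2]
  · have e1 := h1.2.2 h0
    have e2 := h2.2.2 h0
    have hk : 0 ≤ √(-κ) := Real.sqrt_nonneg _
    have hst : √(-κ) * (s + t) = √(-κ) * s + √(-κ) * t := by ring
    have hs1 : 0 ≤ sinh (√(-κ) * s) := sinh_nonneg_iff.2 (mul_nonneg hk hs)
    have ht1 : 0 ≤ sinh (√(-κ) * t) := sinh_nonneg_iff.2 (mul_nonneg hk ht)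
    have f1 := mul_le_mul_of_nonneg_left e1 ht1
    have f2 := mul_le_mul_of_nonneg_left e2 hs1
    rw [hst, sinh_add]
    nlinarith [f1, f2]

/-- a point between `x` and `y`: the angle is `π` -/
theorem le_neg_one_of_hinge {κ s t c : ℝ} (hs : 0 < s) (ht : 0 < t)
    (hp : 0 < κ → √κ * (s + t) < π) (h : Hinge κ s t (s + t) c) : c ≤ -1 := by
  rcases lt_trichotomy κ 0 with h0 | h0 | h0
  · have e1 := h.2.2 h0
    have hk : 0 < √(-κ) := Real.sqrt_pos.2 (by linarith)
    have hst : √(-κ) * (s + t) = √(-κ) * s + √(-κ) * t := by ring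
    rw [hst, cosh_add] at e1
    have hs1 : 0 < sinh (√(-κ) * s) := sinh_pos_iff.2 (mul_pos hk hs)
    have ht1 : 0 < sinh (√(-κ) * t) := sinh_pos_iff.2 (mul_pos hk ht)
    have hpos := mul_pos hs1 ht1
    by_contra hc
    push Not at hc
    nlinarith [mul_lt_mul_of_pos_left hc hpos]
  · have e1 := h.1 h0
    have hpos := mul_pos hs ht
    by_contra hc
    push Not at hc
    nlinarith [mul_lt_mul_of_pos_left hc hpos]
  · have e1 := h.2.1 h0
    have hk : 0 < √κ := Real.sqrt_pos.2 h0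
    have hst : √κ * (s + t) = √κ * s + √κ * t := by ring
    have hle := hp h0
    have hs0 : 0 < √κ * s := mul_pos hk hs
    have ht0 : 0 < √κ * t := mul_pos hk ht
    rw [hst, cos_add] at e1
    have hs1 : 0 < sin (√κ * s) := sin_pos_of_pos_of_lt_pi hs0 (by linarith)
    have ht1 : 0 < sin (√κ * t) := sin_pos_of_pos_of_lt_pi ht0 (by linarith)
    have hpos := mul_pos hs1 ht1
    by_contra hc
    push Not at hc
    nlinarith [mul_lt_mul_of_pos_left hc hpos]

variable {M : Type*} [MetricSpace M] [MeasurableSpace M] {m : Measure M}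

/-- a.e. points are dense -/
theorem exists_ball_of_ae (hm : ∀ x : M, ∀ r > 0, m (Metric.ball x r) ≠ 0) {P : M → Prop}
    (hP : ∀ᵐ x ∂m, P x) (x : M) {r : ℝ} (hr : 0 < r) : ∃ y, dist y x < r ∧ P y := by
  by_contra hcon
  push Not at hcon
  refine hm x r hr (measure_mono_null (fun y hy => ?_) (ae_iff.1 hP))
  exact hcon y (Metric.mem_ball.1 hy)

/-- Approximation: every quadruple carries a Gram matrix with the three hinge inequalities. -/
theorem exists_gram (hm : ∀ x : M, ∀ r > 0, m (Metric.ball x r) ≠ 0) {κ : ℝ}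
    {c : M → M → M → ℝ}
    (hinge : ∀ᵐ w ∂m, ∀ᵐ p ∂m, ∀ᵐ x ∂m, √κ * (dist w p + dist w x + dist p x) < 2 * π →
      Hinge κ (dist w p) (dist w x) (dist p x) (c w p x))
    (gram : ∀ᵐ w ∂m, ∀ᵐ p ∂m, ∀ᵐ x ∂m, ∀ᵐ y ∂m, Gram3 (c w p x) (c w p y) (c w x y))
    (w p x y : M)
    (h1 : √κ * (dist w p + dist w x + dist p x) < 2 * π)
    (h2 : √κ * (dist w p + dist w y + dist p y) < 2 * π)
    (h3 : √κ * (dist w x + dist w y + dist x y) < 2 * π) :
    ∃ a b d : ℝ, Gram3 a b d ∧ Hinge κ (dist w p) (dist w x) (dist p x) a ∧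
      Hinge κ (dist w p) (dist w y) (dist p y) b ∧ Hinge κ (dist w x) (dist w y) (dist x y) d := by
  -- approximating quadruples
  have key : ∀ n : ℕ, ∃ w' p' x' y' : M, dist w' w < 1 / ((n : ℝ) + 1) ∧
      dist p' p < 1 / ((n : ℝ) + 1) ∧ dist x' x < 1 / ((n : ℝ) + 1) ∧
      dist y' y < 1 / ((n : ℝ) + 1) ∧ Gram3 (c w' p' x') (c w' p' y') (c w' x' y') ∧
      (√κ * (dist w' p' + dist w' x' + dist p' x') < 2 * π →
        Hinge κ (dist w' p') (dist w' x') (dist p' x') (c w' p' x')) ∧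
      (√κ * (dist w' p' + dist w' y' + dist p' y') < 2 * π →
        Hinge κ (dist w' p') (dist w' y') (dist p' y') (c w' p' y')) ∧
      (√κ * (dist w' x' + dist w' y' + dist x' y') < 2 * π →
        Hinge κ (dist w' x') (dist w' y') (dist x' y') (c w' x' y')) := by
    intro n
    have hr : (0 : ℝ) < 1 / ((n : ℝ) + 1) := by positivity
    obtain ⟨w', hw', hH, hG⟩ := exists_ball_of_ae hm (hinge.and gram) w hr
    obtain ⟨p', hp', hHp, hGp⟩ := exists_ball_of_ae hm (hH.and hG) p hr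
    obtain ⟨x', hx', ⟨hpx, hGx⟩, hHx⟩ := exists_ball_of_ae hm ((hHp.and hGp).and hH) x hr
    obtain ⟨y', hy', ⟨hpy, hGy⟩, hxy⟩ := exists_ball_of_ae hm ((hHp.and hGx).and hHx) y hr
    exact ⟨w', p', x', y', hw', hp', hx', hy', hGy, hpx, hpy, hxy⟩
  choose W P X Y hW hP hX hY hG hpx hpy hxy using key
  have tz : Tendsto (fun n : ℕ => 1 / ((n : ℝ) + 1)) atTop (𝓝 0) :=
    tendsto_one_div_add_atTop_nhds_zero_nat
  have tW : Tendsto W atTop (𝓝 w) := tendsto_iff_dist_tendsto_zero.2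
    (squeeze_zero (fun _ => dist_nonneg) (fun n => (hW n).le) tz)
  have tP : Tendsto P atTop (𝓝 p) := tendsto_iff_dist_tendsto_zero.2
    (squeeze_zero (fun _ => dist_nonneg) (fun n => (hP n).le) tz)
  have tX : Tendsto X atTop (𝓝 x) := tendsto_iff_dist_tendsto_zero.2
    (squeeze_zero (fun _ => dist_nonneg) (fun n => (hX n).le) tz)
  have tY : Tendsto Y atTop (𝓝 y) := tendsto_iff_dist_tendsto_zero.2
    (squeeze_zero (fun _ => dist_nonneg) (fun n => (hY n).le) tz)
  -- compactness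
  have hmem : ∀ n, (c (W n) (P n) (X n), c (W n) (P n) (Y n), c (W n) (X n) (Y n)) ∈
      (Set.Icc (-1 : ℝ) 1) ×ˢ ((Set.Icc (-1 : ℝ) 1) ×ˢ (Set.Icc (-1 : ℝ) 1)) := by
    intro n
    obtain ⟨_, a1, a2, a3⟩ := (hG n).swap
    exact ⟨abs_le.1 a1, abs_le.1 a2, abs_le.1 a3⟩
  obtain ⟨⟨a, b, d⟩, -, φ, hφ, hlim⟩ :=
    ((isCompact_Icc.prod (isCompact_Icc.prod isCompact_Icc)).tendsto_subseq hmem)
  have la : Tendsto (fun n => c (W (φ n)) (P (φ n)) (X (φ n))) atTop (𝓝 a) :=
    (continuous_fst.tendsto _).comp hlim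
  have lb : Tendsto (fun n => c (W (φ n)) (P (φ n)) (Y (φ n))) atTop (𝓝 b) :=
    ((continuous_fst.comp continuous_snd).tendsto _).comp hlim
  have ld : Tendsto (fun n => c (W (φ n)) (X (φ n)) (Y (φ n))) atTop (𝓝 d) :=
    ((continuous_snd.comp continuous_snd).tendsto _).comp hlim
  have sW := tW.comp hφ.tendsto_atTop
  have sP := tP.comp hφ.tendsto_atTop
  have sX := tX.comp hφ.tendsto_atTop
  have sY := tY.comp hφ.tendsto_atTop
  -- a general limit of hinges
  have lim1 : ∀ {A B D : ℕ → M} {A0 B0 D0 : M} {e : ℕ → ℝ} {e0 : ℝ},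
      Tendsto A atTop (𝓝 A0) → Tendsto B atTop (𝓝 B0) → Tendsto D atTop (𝓝 D0) →
      Tendsto e atTop (𝓝 e0) → √κ * (dist A0 B0 + dist A0 D0 + dist B0 D0) < 2 * π →
      (∀ n, √κ * (dist (A n) (B n) + dist (A n) (D n) + dist (B n) (D n)) < 2 * π →
        Hinge κ (dist (A n) (B n)) (dist (A n) (D n)) (dist (B n) (D n)) (e n)) →
      Hinge κ (dist A0 B0) (dist A0 D0) (dist B0 D0) e0 := by
    intro A B D A0 B0 D0 e e0 hA hB hD he hlt hall
    have t1 := hA.dist hB
    have t2 := hA.dist hD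
    have t3 := hB.dist hD
    have t4 : Tendsto (fun n => √κ * (dist (A n) (B n) + dist (A n) (D n) + dist (B n) (D n)))
        atTop (𝓝 (√κ * (dist A0 B0 + dist A0 D0 + dist B0 D0))) :=
      tendsto_const_nhds.mul ((t1.add t2).add t3)
    obtain ⟨N, hN⟩ := eventually_atTop.1 (t4.eventually_lt_const hlt)
    have sh : Tendsto (fun n : ℕ => n + N) atTop atTop := tendsto_add_atTop_nat N
    exact Hinge.tendsto (t1.comp sh) (t2.comp sh) (t3.comp sh) (he.comp sh)
      fun n => hall (n + N) (hN _ (Nat.le_add_left N n))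
  refine ⟨a, b, d, Gram3.tendsto la lb ld fun n => hG (φ n), ?_, ?_, ?_⟩
  · exact lim1 sW sP sX la h1 fun n => hpx (φ n)
  · exact lim1 sW sP sY lb h2 fun n => hpy (φ n)
  · exact lim1 sW sX sY ld h3 fun n => hxy (φ n)

/-- **Hinges with Gram matrices give a geodesic space with curvature `≥ κ`.** -/
theorem isAlexandrov_of_hinge (hm : ∀ x : M, ∀ r > 0, m (Metric.ball x r) ≠ 0) {κ : ℝ}
    {c : M → M → M → ℝ}
    (geo : ∀ x y : M, ∀ s t : ℝ, 0 ≤ s → 0 ≤ t → s + t = dist x y →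
      ∃ w, dist x w = s ∧ dist w y = t)
    (hinge : ∀ᵐ w ∂m, ∀ᵐ p ∂m, ∀ᵐ x ∂m, √κ * (dist w p + dist w x + dist p x) < 2 * π →
      Hinge κ (dist w p) (dist w x) (dist p x) (c w p x))
    (gram : ∀ᵐ w ∂m, ∀ᵐ p ∂m, ∀ᵐ x ∂m, ∀ᵐ y ∂m, Gram3 (c w p x) (c w p y) (c w x y)) :
    T.IsAlexandrov M κ := by
  refine ⟨geo, fun p x y w hw hper => ?_⟩
  have hk : 0 ≤ √κ := Real.sqrt_nonneg _
  have hxy : dist x y ≤ dist p x + dist p y := by
    rw [dist_comm p x]; exact dist_triangle _ _ _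
  have e1 : √κ * (dist w p + dist w x + dist p x) < 2 * π := by
    refine lt_of_le_of_lt (mul_le_mul_of_nonneg_left ?_ hk) hper
    have := dist_triangle w y p
    rw [dist_comm y p] at this
    rw [← hw, dist_comm w x]
    linarith
  have e2 : √κ * (dist w p + dist w y + dist p y) < 2 * π := by
    refine lt_of_le_of_lt (mul_le_mul_of_nonneg_left ?_ hk) hper
    have := dist_triangle w x p
    rw [dist_comm x p, dist_comm w x] at this
    rw [← hw]
    linarith
  have e3 : √κ * (dist w x + dist w y + dist x y) < 2 * π := by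
    refine lt_of_le_of_lt (mul_le_mul_of_nonneg_left ?_ hk) hper
    rw [dist_comm w x]
    linarith
  have hpi : √κ * (dist x w + dist w y) < π := by
    rw [dist_comm w x, hw] at e3
    have : √κ * (dist x w + dist w y + dist x y) = 2 * (√κ * dist x y) := by
      rw [hw]; ring
    rw [hw]
    linarith
  obtain ⟨a, b, d, hG, h1, h2, h3⟩ := exists_gram hm hinge gram w p x y e1 e2 e3
  rw [dist_comm w p, dist_comm w x] at h1
  rw [dist_comm w p] at h2
  rw [dist_comm w x] at h3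
  rcases (dist_nonneg (x := x) (y := w)).eq_or_lt with hs | hs
  · -- `w = x`
    have hwx : x = w := dist_eq_zero.1 hs.symm
    subst hwx
    refine ⟨fun _ => ?_, fun _ => ?_, fun _ => ?_⟩ <;> simp
  rcases (dist_nonneg (x := w) (y := y)).eq_or_lt with ht | ht
  · have hwy : w = y := dist_eq_zero.1 ht.symm
    subst hwy
    refine ⟨fun _ => ?_, fun _ => ?_, fun _ => ?_⟩ <;> simp
  refine cmp_of_hinges hs.le ht.le (fun _ => hpi.le) h1 h2 (hG.opp ?_)
  rw [← hw] at h3
  exact le_neg_one_of_hinge hs ht (fun _ => hpi) h3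

end Vale.Agent.P233.H933
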