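import Vale.Agent.P233.H933.Rad1
import Vale.Agent.P233.H933.Hinge

/-!
# P233, block F2c (ii): from concavity along the flow to `RadConc`
-/

set_option linter.all false

open MeasureTheory Filter Topology Set
open scoped ENNReal NNReal

universe u

namespace Vale.Agent.P233.H933

theorem ae_affine {P : ℝ → Prop} (h : ∀ᵐ u : ℝ, P u) (d : ℝ) {c : ℝ} (hc : c ≠ 0) :
    ∀ᵐ s : ℝ, P (d + s / c) := by
  rw [ae_iff] at h ⊢
  have e : {s : ℝ | ¬P (d + s / c)} = (fun s => c⁻¹ * s) ⁻¹' ((fun s => d + s) ⁻¹' {u | ¬P u}) := by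
    ext s
    simp only [mem_setOf_eq, mem_preimage]
    rw [div_eq_inv_mul]
  rw [e, Real.volume_preimage_mul_left (inv_ne_zero hc), measure_preimage_add, h, mul_zero]

/-- comparison along a piece of a curve of constant speed `l` -/
theorem cmp_of_curve {κ l a b : ℝ} (hl : 0 < l) (hab : a < b) (hκ : √κ * (l * (b - a)) < Real.pi)
    {r g : ℝ → ℝ} (hg : IntervalIntegrable g volume a b)
    (hf : ∀ t ∈ Icc a b, md κ (r t) - md κ (r a) = ∫ x in a..t, g x)
    (hode : ∀ᵐ s : ℝ, ∀ᵐ t : ℝ, a < s → s < t → t < b →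
      g t - g s ≤ l ^ 2 * ∫ x in s..t, cs κ (r x)) :
    ∀ t ∈ Icc a b, T.Cmp κ (r a) (r b) (l * (t - a)) (l * (b - t)) (r t) := by
  have hℓ : 0 < l * (b - a) := mul_pos hl (by linarith)
  have hl' : l ≠ 0 := hl.ne'
  have h1 := cmp_of_ode (κ := κ) (ℓ := l * (b - a)) hℓ hκ (r := fun s => r (a + s / l))
    (g := fun s => l⁻¹ * g (a + s / l)) ?_ ?_ ?_
  · intro t ht
    have h2 := h1 (l * (t - a)) ⟨mul_nonneg hl.le (by linarith [ht.1]),
      mul_le_mul_of_nonneg_left (by linarith [ht.2]) hl.le⟩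
    simp only [zero_div, add_zero] at h2
    have e1 : a + l * (b - a) / l = b := by field_simp; ring
    have e2 : a + l * (t - a) / l = t := by field_simp; ring
    have e3 : l * (b - a) - l * (t - a) = l * (b - t) := by ring
    rw [e1, e2, e3] at h2
    exact h2
  · have h2 := IntervalIntegrable.comp_mul_left (c := l⁻¹) (hg.comp_add_left a)
    have e1 : (a - a) / l⁻¹ = 0 := by simp
    have e2 : (b - a) / l⁻¹ = l * (b - a) := by field_simp
    rw [e1, e2] at h2
    refine IntervalIntegrable.const_mul ?_ _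
    refine h2.congr ?_
    intro x _
    simp only [div_eq_inv_mul]
  · intro s hs
    have h2 := hf (a + s / l) ⟨by have := div_nonneg hs.1 hl.le; linarith, by
      have : s / l ≤ b - a := by
        rw [div_le_iff₀ hl]; linarith [hs.2]
      linarith⟩
    simp only [zero_div, add_zero]
    rw [h2, intervalIntegral.integral_const_mul, intervalIntegral.integral_comp_add_div _ hl']
    simp only [zero_div, add_zero, smul_eq_mul]
    rw [← mul_assoc, inv_mul_cancel₀ hl', one_mul]
  · filter_upwards [ae_affine hode a hl'] with s hs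
    filter_upwards [ae_affine hs a hl'] with t ht h0 hst hlt
    have k1 : a < a + s / l := by have := div_pos h0 hl; linarith
    have k2 : a + s / l < a + t / l := by
      have := (div_lt_div_iff_of_pos_right hl).2 hst
      linarith
    have k3 : a + t / l < b := by
      have : t / l < b - a := by rw [div_lt_iff₀ hl]; linarith
      linarith
    have h3 := ht k1 k2 k3
    have h4 : (∫ x in s..t, cs κ (r (a + x / l))) = l * ∫ x in (a + s / l)..(a + t / l), cs κ (r x) := by
      rw [intervalIntegral.integral_comp_add_div (fun x => cs κ (r x)) hl', smul_eq_mul]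
    rw [h4]
    have h5 : l⁻¹ * g (a + t / l) - l⁻¹ * g (a + s / l)
        = l⁻¹ * (g (a + t / l) - g (a + s / l)) := by ring
    rw [h5]
    have h6 := mul_le_mul_of_nonneg_left h3 (inv_nonneg.2 hl.le)
    have h7 : l⁻¹ * (l ^ 2 * ∫ x in (a + s / l)..(a + t / l), cs κ (r x))
        = l * ∫ x in (a + s / l)..(a + t / l), cs κ (r x) := by
      rw [← mul_assoc, sq, ← mul_assoc, inv_mul_cancel₀ hl', one_mul]
    rw [h7] at h6
    exact h6

/-- comparison is a closed condition -/
theorem cmp_tendsto {ι : Type*} {F : Filter ι} [F.NeBot] {κ : ℝ} {a b s t r : ι → ℝ}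
    {a0 b0 s0 t0 r0 : ℝ} (ha : Tendsto a F (𝓝 a0)) (hb : Tendsto b F (𝓝 b0))
    (hs : Tendsto s F (𝓝 s0)) (ht : Tendsto t F (𝓝 t0)) (hr : Tendsto r F (𝓝 r0))
    (h : ∀ i, T.Cmp κ (a i) (b i) (s i) (t i) (r i)) : T.Cmp κ a0 b0 s0 t0 r0 := by
  have cc : ∀ {f : ι → ℝ} {f0 : ℝ} (k : ℝ), Tendsto f F (𝓝 f0) →
      Tendsto (fun i => Real.cos (k * f i)) F (𝓝 (Real.cos (k * f0))) := fun k hf =>
    (Real.continuous_cos.tendsto _).comp (tendsto_const_nhds.mul hf)
  have ss : ∀ {f : ι → ℝ} {f0 : ℝ} (k : ℝ), Tendsto f F (𝓝 f0) →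
      Tendsto (fun i => Real.sin (k * f i)) F (𝓝 (Real.sin (k * f0))) := fun k hf =>
    (Real.continuous_sin.tendsto _).comp (tendsto_const_nhds.mul hf)
  have ch : ∀ {f : ι → ℝ} {f0 : ℝ} (k : ℝ), Tendsto f F (𝓝 f0) →
      Tendsto (fun i => Real.cosh (k * f i)) F (𝓝 (Real.cosh (k * f0))) := fun k hf =>
    (Real.continuous_cosh.tendsto _).comp (tendsto_const_nhds.mul hf)
  have sh : ∀ {f : ι → ℝ} {f0 : ℝ} (k : ℝ), Tendsto f F (𝓝 f0) →
      Tendsto (fun i => Real.sinh (k * f i)) F (𝓝 (Real.sinh (k * f0))) := fun k hf =>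
    (Real.continuous_sinh.tendsto _).comp (tendsto_const_nhds.mul hf)
  refine ⟨fun h0 => ?_, fun h0 => ?_, fun h0 => ?_⟩
  · refine le_of_tendsto_of_tendsto' (b := F) ?_ ?_ fun i => (h i).1 h0
    · exact ((ht.mul (ha.pow 2)).add (hs.mul (hb.pow 2))).sub ((hs.mul ht).mul (hs.add ht))
    · exact (hs.add ht).mul (hr.pow 2)
  · refine le_of_tendsto_of_tendsto' (b := F) ?_ ?_ fun i => (h i).2.1 h0
    · exact (ss _ (hs.add ht)).mul (cc _ hr)
    · exact ((ss _ ht).mul (cc _ ha)).add ((ss _ hs).mul (cc _ hb))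
  · refine le_of_tendsto_of_tendsto' (b := F) ?_ ?_ fun i => (h i).2.2 h0
    · exact ((sh _ ht).mul (ch _ ha)).add ((sh _ hs).mul (ch _ hb))
    · exact (sh _ (hs.add ht)).mul (ch _ hr)

variable {M : Type u} [MetricSpace M] [MeasurableSpace M] {m : Measure M}

/-- Output of the flow with centre `w`: for a.e. `x` the curve `t ↦ Y t` from (near) `w` to `x`
and the concavity of `md_κ(d_p)` along it. -/
def FlowConc (m : Measure M) (κ : ℝ) : Prop :=
  ∀ (w p : M) (R : ℝ), Adm κ R → ∀ s₀ : ℝ, 0 < s₀ → s₀ ≤ 1 → ∃ L₀ : ℝ, ∀ᵐ x ∂m, x ≠ w →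
    dist w x < R → ∃ (Y : ℝ → M) (g : ℝ → ℝ),
      (∀ t ∈ Ioo (0 : ℝ) 1, dist w (Y t) = (t + s₀) / (1 + s₀) * dist w x ∧
        dist (Y t) x = (1 - t) / (1 + s₀) * dist w x) ∧
      (∀ a b : ℝ, 0 < a → a < b → b < 1 → IntervalIntegrable g volume a b) ∧
      (∀ s t : ℝ, 0 < s → s ≤ t → t < 1 → mdr κ p R (Y t) - mdr κ p R (Y s) = ∫ r in s..t, g r) ∧
      ∀ᵐ s : ℝ, ∀ᵐ t : ℝ, 0 < s → s < t → t < 1 → g t - g s ≤ (dist w x / (1 + s₀)) ^ 2 *
        ∫ r in s..t, (open Classical in if dist p (Y r) < R then cs κ (dist p (Y r)) else L₀)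

/-- **From the flow to radial concavity.** -/
theorem radConc_of_flow [ProperSpace M] [m.IsOpenPosMeasure] {κ : ℝ} (h : FlowConc m κ) :
    RadConc M κ := by
  classical
  intro w p x₀ hper
  have hk : 0 ≤ √κ := Real.sqrt_nonneg _
  by_cases hx₀ : w = x₀
  · subst hx₀
    refine ⟨fun _ => w, fun s hs => ?_, fun s hs => ?_⟩
    · rw [dist_self] at hs ⊢
      have : s = 0 := le_antisymm hs.2 hs.1
      subst this
      simp
    · rw [dist_self] at hs ⊢
      have : s = 0 := le_antisymm hs.2 hs.1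
      subst this
      refine ⟨fun _ => ?_, fun _ => ?_, fun _ => ?_⟩ <;> simp
  -- the radius
  set P : ℝ := dist w p + dist p x₀ + dist x₀ w with hP
  have hpi : 0 < Real.pi := Real.pi_pos
  have hL : 0 < dist w x₀ := dist_pos.2 hx₀
  have hP0 : 0 < P := by
    have h1 := dist_nonneg (x := w) (y := p)
    have h2 := dist_nonneg (x := p) (y := x₀)
    rw [dist_comm x₀ w] at hP
    linarith
  obtain ⟨R, hPR, hR⟩ : ∃ R, P / 2 < R ∧ √κ * R < Real.pi := by
    rcases hk.eq_or_lt with h0 | h0
    · exact ⟨P, by linarith, by rw [← h0]; simpa using hpi⟩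
    · have : P / 2 < Real.pi / √κ := by
        rw [lt_div_iff₀ h0]
        have : √κ * P < 2 * Real.pi := hper
        nlinarith
      obtain ⟨R, h1, h2⟩ := exists_between this
      exact ⟨R, h1, by rw [lt_div_iff₀ h0] at h2; linarith⟩
  have hR0 : 0 < R := by linarith
  have hwx₀ : dist w x₀ ≤ P / 2 := by
    have h1 : dist w x₀ ≤ dist w p + dist p x₀ := dist_triangle _ _ _
    rw [dist_comm x₀ w] at hP
    linarith
  -- the approximating curves
  have key : ∀ n : ℕ, ∃ (x : M) (z : ℝ → M) (A B : ℝ), dist x x₀ < 1 / ((n : ℝ) + 1) ∧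
      0 < A ∧ A < B ∧ B < dist w x ∧ A ≤ R * (2 / ((n : ℝ) + 1)) ∧
      dist w x - B ≤ R * (1 / ((n : ℝ) + 1)) ∧
      (∀ s ∈ Icc A B, dist w (z s) = s ∧ dist (z s) x = dist w x - s) ∧
      ∀ s ∈ Icc A B, T.Cmp κ (dist p (z A)) (dist p (z B)) (s - A) (B - s) (dist p (z s)) := by
    intro n
    set s₀ : ℝ := 1 / ((n : ℝ) + 1) with hs₀
    have hs0 : 0 < s₀ := by positivity
    have hs1 : s₀ ≤ 1 := by
      rw [hs₀, div_le_one (by positivity)]
      have : (0 : ℝ) ≤ n := Nat.cast_nonneg n
      linarith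
    obtain ⟨L₀, hae⟩ := h w p R ⟨hR0, hR⟩ s₀ hs0 hs1
    have hε : 0 < min s₀ (min (dist w x₀) (R - P / 2)) :=
      lt_min hs0 (lt_min hL (by linarith))
    obtain ⟨x, hx, hxP⟩ := exists_ball_of_ae (fun y r hr =>
      (Metric.isOpen_ball.measure_pos m ⟨y, Metric.mem_ball_self hr⟩).ne') hae x₀ hε
    have hx1 : dist x x₀ < s₀ := hx.trans_le (min_le_left _ _)
    have hx2 : dist x x₀ < dist w x₀ := hx.trans_le ((min_le_right _ _).trans (min_le_left _ _))
    have hx3 : dist x x₀ < R - P / 2 :=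
      hx.trans_le ((min_le_right _ _).trans (min_le_right _ _))
    have hxw : x ≠ w := by
      rintro rfl
      exact lt_irrefl _ hx2
    have hwx : 0 < dist w x := dist_pos.2 hxw.symm
    have hwxR : dist w x < R := by
      have := dist_triangle w x₀ x
      rw [dist_comm x₀ x] at this
      linarith
    obtain ⟨Y, g, hY, hgi, hgf, hode⟩ := hxP hxw hwxR
    set l : ℝ := dist w x / (1 + s₀) with hl
    have h1s : 0 < 1 + s₀ := by linarith
    have hl0 : 0 < l := div_pos hwx h1s
    have hlx : l * (1 + s₀) = dist w x := by rw [hl]; field_simp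
    have hlle : l ≤ dist w x := by nlinarith
    have hYw : ∀ t ∈ Ioo (0 : ℝ) 1, dist w (Y t) = l * (t + s₀) := fun t ht => by
      rw [(hY t ht).1, hl]; ring
    have hYx : ∀ t ∈ Ioo (0 : ℝ) 1, dist (Y t) x = l * (1 - t) := fun t ht => by
      rw [(hY t ht).2, hl]; ring
    -- the curve stays in the ball of radius `R` around `p`
    have hin : ∀ t ∈ Ioo (0 : ℝ) 1, dist p (Y t) < R := by
      intro t ht
      have a1 := dist_triangle p w (Y t)
      have a2 := dist_triangle p x (Y t)
      rw [dist_comm x (Y t), hYx t ht] at a2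
      rw [hYw t ht] at a1
      have a3 := dist_triangle p x₀ x
      rw [dist_comm x₀ x] at a3
      have a4 := dist_triangle w x₀ x
      rw [dist_comm x₀ x] at a4
      have a5 : l * (t + s₀) + l * (1 - t) = dist w x := by rw [← hlx]; ring
      rw [dist_comm p w] at a1
      rw [dist_comm x₀ w] at hP
      linarith
    -- the time interval
    set a : ℝ := s₀ / 4 with ha
    set b : ℝ := 1 - s₀ / 4 with hb
    have ha0 : 0 < a := by rw [ha]; linarith
    have hab : a < b := by rw [ha, hb]; linarith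
    have hb1 : b < 1 := by rw [hb]; linarith
    have hmem : ∀ t ∈ Icc a b, t ∈ Ioo (0 : ℝ) 1 := fun t ht =>
      ⟨lt_of_lt_of_le ha0 ht.1, lt_of_le_of_lt ht.2 hb1⟩
    have hcmp := cmp_of_curve (κ := κ) hl0 hab (r := fun t => dist p (Y t)) (g := g) ?_
      (hgi a b ha0 hab hb1) ?_ ?_
    · refine ⟨x, fun s => Y (s / l - s₀), l * (a + s₀), l * (b + s₀), hx1,
        mul_pos hl0 (by linarith), mul_lt_mul_of_pos_left (by linarith) hl0, ?_, ?_, ?_, ?_, ?_⟩
      · rw [← hlx]; exact mul_lt_mul_of_pos_left (by linarith) hl0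
      · have e1 : l * (a + s₀) ≤ R * (a + s₀) :=
          mul_le_mul_of_nonneg_right (by linarith) (by linarith)
        refine e1.trans (mul_le_mul_of_nonneg_left ?_ hR0.le)
        have : 2 / ((n : ℝ) + 1) = 2 * s₀ := by rw [hs₀]; ring
        rw [this, ha]; linarith
      · rw [← hlx]
        have e1 : l * (1 + s₀) - l * (b + s₀) = l * (s₀ / 4) := by rw [hb]; ring
        rw [e1]
        have e2 : l * (s₀ / 4) ≤ R * (s₀ / 4) :=
          mul_le_mul_of_nonneg_right (by linarith) (by linarith)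
        refine e2.trans (mul_le_mul_of_nonneg_left ?_ hR0.le)
        linarith
      · intro s hs
        have ht : s / l - s₀ ∈ Icc a b := by
          constructor
          · have : a + s₀ ≤ s / l := by rw [le_div_iff₀ hl0]; linarith [hs.1]
            linarith
          · have : s / l ≤ b + s₀ := by rw [div_le_iff₀ hl0]; linarith [hs.2]
            linarith
        refine ⟨?_, ?_⟩
        · rw [hYw _ (hmem _ ht)]; field_simp; ring
        · rw [hYx _ (hmem _ ht), ← hlx]; field_simp; ring
      · intro s hs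
        have ht : s / l - s₀ ∈ Icc a b := by
          constructor
          · have : a + s₀ ≤ s / l := by rw [le_div_iff₀ hl0]; linarith [hs.1]
            linarith
          · have : s / l ≤ b + s₀ := by rw [div_le_iff₀ hl0]; linarith [hs.2]
            linarith
        have h2 := hcmp _ ht
        have e1 : l * (a + s₀) / l - s₀ = a := by field_simp; ring
        have e2 : l * (b + s₀) / l - s₀ = b := by field_simp; ring
        have e3 : l * (s / l - s₀ - a) = s - l * (a + s₀) := by field_simp; ring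
        have e4 : l * (b - (s / l - s₀)) = l * (b + s₀) - s := by field_simp; ring
        rw [e3, e4] at h2
        simp only [e1, e2]
        exact h2
    · refine lt_of_le_of_lt (mul_le_mul_of_nonneg_left ?_ hk) hR
      have : l * (b - a) ≤ l * 1 := mul_le_mul_of_nonneg_left (by linarith) hl0.le
      linarith
    · intro t ht
      have h2 := hgf a t ha0 ht.1 (hmem t ht).2
      simp only [mdr] at h2
      rw [min_eq_left (hin t (hmem t ht)).le, min_eq_left (hin a (hmem a ⟨le_rfl, hab.le⟩)).le]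
        at h2
      linarith
    · filter_upwards [hode] with s hs
      filter_upwards [hs] with t ht h0 hst hlt
      have h2 := ht (ha0.trans h0) hst (hlt.trans hb1)
      have h3 : (∫ r in s..t, (if dist p (Y r) < R then cs κ (dist p (Y r)) else L₀))
          = ∫ r in s..t, cs κ (dist p (Y r)) := by
        refine intervalIntegral.integral_congr fun r hr => ?_
        rw [uIcc_of_le hst.le] at hr
        rw [if_pos (hin r ⟨by linarith [hr.1], by linarith [hr.2]⟩)]
      rw [h3] at h2
      exact h2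
  choose X z A B hX hA0 hAB hBx hA hB hz hC using key
  -- an ultrafilter
  set U : Ultrafilter ℕ := hyperfilter ℕ with hU
  have hUle : (U : Filter ℕ) ≤ atTop := by
    rw [hU, ← Nat.cofinite_eq_atTop]; exact hyperfilter_le_cofinite
  have t0 : Tendsto (fun n : ℕ => 1 / ((n : ℝ) + 1)) U (𝓝 0) :=
    tendsto_one_div_add_atTop_nhds_zero_nat.mono_left hUle
  have tX : Tendsto X U (𝓝 x₀) := tendsto_iff_dist_tendsto_zero.2
    (squeeze_zero (fun _ => dist_nonneg) (fun n => (hX n).le) t0)
  have tL : Tendsto (fun n => dist w (X n)) U (𝓝 (dist w x₀)) := tendsto_const_nhds.dist tX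
  have tA : Tendsto A U (𝓝 0) := by
    refine squeeze_zero (fun n => (hA0 n).le) hA ?_
    have := (t0.const_mul (2 * R))
    rw [mul_zero] at this
    refine this.congr fun n => ?_
    ring
  have tB : Tendsto B U (𝓝 (dist w x₀)) := by
    have h1 : Tendsto (fun n => dist w (X n) - B n) U (𝓝 0) := by
      refine squeeze_zero (fun n => (sub_pos.2 (hBx n)).le) hB ?_
      have := (t0.const_mul R)
      rw [mul_zero] at this
      exact this
    have h2 := tL.sub h1
    simp only [sub_zero, sub_sub_cancel] at h2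
    exact h2
  -- clamped parameters
  set c : ℝ → ℕ → ℝ := fun s n => max (A n) (min s (B n)) with hc
  have hcm : ∀ s n, c s n ∈ Icc (A n) (B n) := fun s n =>
    ⟨le_max_left _ _, max_le (hAB n).le (min_le_right _ _)⟩
  have tc : ∀ s ∈ Icc 0 (dist w x₀), Tendsto (c s) U (𝓝 s) := by
    intro s hs
    have h1 : Tendsto (c s) U (𝓝 (max 0 (min s (dist w x₀)))) :=
      tA.max (tendsto_const_nhds.min tB)
    rwa [min_eq_left hs.2, max_eq_right hs.1] at h1
  -- the limit curve
  have hlim : ∀ s : ℝ, ∃ y : M, Tendsto (fun n => z n (c s n)) U (𝓝 y) := by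
    intro s
    have hcomp : IsCompact (Metric.closedBall w (dist w x₀ + 1)) := isCompact_closedBall _ _
    have hev : ∀ᶠ n in (U : Filter ℕ), z n (c s n) ∈ Metric.closedBall w (dist w x₀ + 1) := by
      filter_upwards [tL.eventually_lt_const (show dist w x₀ < dist w x₀ + 1 by linarith)]
        with n hn
      rw [Metric.mem_closedBall, dist_comm, (hz n _ (hcm s n)).1]
      have := (hcm s n).2
      have := hBx n
      linarith
    obtain ⟨y, -, hy⟩ := hcomp.ultrafilter_le_nhds (U.map fun n => z n (c s n)) (by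
      rw [Filter.le_principal_iff]
      exact hev)
    exact ⟨y, hy⟩
  choose σ hσ using hlim
  refine ⟨σ, fun s hs => ⟨?_, ?_⟩, fun s hs => ?_⟩
  · have h1 : Tendsto (fun n => dist w (z n (c s n))) U (𝓝 (dist w (σ s))) :=
      tendsto_const_nhds.dist (hσ s)
    have h2 : Tendsto (fun n => dist w (z n (c s n))) U (𝓝 s) :=
      (tc s hs).congr fun n => ((hz n _ (hcm s n)).1).symm
    exact tendsto_nhds_unique h1 h2
  · have h1 : Tendsto (fun n => dist (z n (c s n)) (X n)) U (𝓝 (dist (σ s) x₀)) :=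
      (hσ s).dist tX
    have h2 : Tendsto (fun n => dist (z n (c s n)) (X n)) U (𝓝 (dist w x₀ - s)) :=
      (tL.sub (tc s hs)).congr fun n => ((hz n _ (hcm s n)).2).symm
    exact tendsto_nhds_unique h1 h2
  · -- the end points
    have ez0 : Tendsto (fun n => z n (A n)) U (𝓝 w) := by
      rw [tendsto_iff_dist_tendsto_zero]
      refine tA.congr fun n => ?_
      rw [dist_comm, (hz n (A n) ⟨le_rfl, (hAB n).le⟩).1]
    have ez1 : Tendsto (fun n => z n (B n)) U (𝓝 x₀) := by
      have h1 : Tendsto (fun n => dist (z n (B n)) (X n) + dist (X n) x₀) U (𝓝 0) := by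
        have h2 : Tendsto (fun n => dist (z n (B n)) (X n)) U (𝓝 0) := by
          have h3 := tL.sub tB
          rw [sub_self] at h3
          exact h3.congr fun n => ((hz n (B n) ⟨(hAB n).le, le_rfl⟩).2).symm
        have h4 := h2.add (tendsto_iff_dist_tendsto_zero.1 tX)
        simpa using h4
      rw [tendsto_iff_dist_tendsto_zero]
      exact squeeze_zero (fun _ => dist_nonneg) (fun n => dist_triangle _ _ _) h1
    refine cmp_tendsto (F := (U : Filter ℕ)) (tendsto_const_nhds.dist ez0)
      (tendsto_const_nhds.dist ez1) ?_ ?_ (tendsto_const_nhds.dist (hσ s))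
      fun n => hC n (c s n) (hcm s n)
    · have := (tc s hs).sub tA
      simpa using this
    · exact tB.sub (tc s hs)

end Vale.Agent.P233.H933
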