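import Vale.Agent.P233.Bd3.B4
import Mathlib.Analysis.SpecialFunctions.Trigonometric.Series

/-!
# P233-RCDA, G3: first variation of the comparison cosine

`cvA_approx` : `|cvA κ a t c - (a - c) / t| ≤ ε` for small `t`.
-/

set_option linter.all false

open Real Filter Topology Set

namespace Vale.Agent.P233.Str

open Vale.Agent.P233.AB

lemma abs_sin_sub_le (x : ℝ) : |sin x - x| ≤ |x| ^ 3 := by
  rcases le_total 0 x with h | h
  · have h1 := Real.sin_le h
    have h2 := Real.sin_ge_sub_cube h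
    rw [abs_of_nonpos (by linarith), abs_of_nonneg h]
    have : 0 ≤ x ^ 3 := by positivity
    linarith
  · have h' : 0 ≤ -x := by linarith
    have h1 := Real.sin_le h'
    have h2 := Real.sin_ge_sub_cube h'
    rw [Real.sin_neg] at h1 h2
    rw [abs_of_nonneg (by linarith), abs_of_nonpos h]
    have : 0 ≤ (-x) ^ 3 := by positivity
    linarith

lemma cosh_sub_one_le {x : ℝ} (h : |x| ≤ 1) : cosh x - 1 ≤ x ^ 2 := by
  have h1 := Real.cosh_le_exp_half_sq x
  have hx : x ^ 2 ≤ 1 := by rw [← sq_abs]; nlinarith [abs_nonneg x]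
  have h0 : 0 ≤ x ^ 2 / 2 := by positivity
  have h2 : exp (x ^ 2 / 2) ≤ 1 + 2 * (x ^ 2 / 2) := by
    have h3 : |x ^ 2 / 2| ≤ 1 := by rw [abs_of_nonneg h0]; linarith
    have h4 := Real.abs_exp_sub_one_sub_id_le h3
    have h5 := (abs_le.1 h4).2
    nlinarith
  linarith

lemma abs_sinh_sub_le {x : ℝ} (h : |x| ≤ 1) : |sinh x - x| ≤ |x| ^ 3 := by
  have key : ∀ y : ℝ, 0 ≤ y → y ≤ 1 → 0 ≤ sinh y - y ∧ sinh y - y ≤ y ^ 3 := by
    intro y hy hy1
    refine ⟨by linarith [Real.self_le_sinh_iff.2 hy], ?_⟩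
    -- sinh y ≤ y cosh y
    have h1 : sinh y ≤ y * cosh y := by
      have hmono : MonotoneOn (fun z : ℝ => z * cosh z - sinh z) (Ici 0) := by
        refine monotoneOn_of_deriv_nonneg (convex_Ici 0) (by fun_prop) (by fun_prop) ?_
        intro z hz
        rw [interior_Ici, mem_Ioi] at hz
        have hd : HasDerivAt (fun z : ℝ => z * cosh z - sinh z) (1 * cosh z + z * sinh z - cosh z) z :=
          ((hasDerivAt_id z).mul (Real.hasDerivAt_cosh z)).sub (Real.hasDerivAt_sinh z)
        rw [hd.deriv]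
        have : 0 ≤ sinh z := Real.sinh_nonneg_iff.2 hz.le
        nlinarith
      have := hmono (mem_Ici.2 le_rfl) (mem_Ici.2 hy) hy
      simp only [zero_mul, Real.sinh_zero, sub_zero] at this
      linarith
    have h2 := cosh_sub_one_le (x := y) (by rwa [abs_of_nonneg hy])
    nlinarith
  rcases le_total 0 x with h0 | h0
  · rw [abs_of_nonneg h0] at h ⊢
    obtain ⟨h1, h2⟩ := key x h0 h
    rwa [abs_of_nonneg h1]
  · rw [abs_of_nonpos h0] at h ⊢
    obtain ⟨h1, h2⟩ := key (-x) (by linarith) h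
    rw [Real.sinh_neg] at h1 h2
    rw [abs_of_nonpos (by linarith)]
    linarith

/-- the trigonometric case, with `k t = y`, `k (a - c) = u`, `k a = v` -/
lemma trig_approx {v u y : ℝ} (hv : 0 < sin v) (hy : 0 < y) (hy1 : y ≤ 1) (hu : |u| ≤ y) :
    |(cos (v - u) - cos v * cos y) / (sin v * sin y) - u / y| ≤ y / sin v + 4 * y ^ 2 := by
  have hsy : y / 2 ≤ sin y := by
    have h1 := Real.sin_ge_sub_cube hy.le
    nlinarith [pow_pos hy 3, pow_pos hy 2]
  have hsy0 : 0 < sin y := by linarith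
  have hsy' : sin y ≤ y := Real.sin_le hy.le
  have e : (cos (v - u) - cos v * cos y) / (sin v * sin y) - u / y =
      cos v * (cos u - cos y) / (sin v * sin y) + (y * (sin u - u) - u * (sin y - y)) / (y * sin y) := by
    rw [cos_sub]
    field_simp
    ring
  rw [e]
  have hc : |cos u - cos y| ≤ y ^ 2 / 2 := by
    have h1 := Real.one_sub_sq_div_two_le_cos (x := y)
    have h2 := Real.one_sub_sq_div_two_le_cos (x := u)
    have h3 := Real.cos_le_one u
    have h4 := Real.cos_le_one y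
    have h5 : u ^ 2 ≤ y ^ 2 := by rw [← sq_abs u]; exact pow_le_pow_left₀ (abs_nonneg u) hu 2
    rw [abs_le]
    constructor <;> linarith
  have h1 : |cos v * (cos u - cos y) / (sin v * sin y)| ≤ y / sin v := by
    rw [abs_div, abs_mul, abs_of_pos (mul_pos hv hsy0), div_le_div_iff₀ (mul_pos hv hsy0) hv]
    have h2 : |cos v| * |cos u - cos y| ≤ 1 * (y ^ 2 / 2) :=
      mul_le_mul (Real.abs_cos_le_one v) hc (abs_nonneg _) zero_le_one
    have h3 : y ^ 2 / 2 ≤ y * sin y := by nlinarith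
    calc |cos v| * |cos u - cos y| * sin v ≤ (y * sin y) * sin v :=
          mul_le_mul_of_nonneg_right (by linarith) hv.le
      _ = y * (sin v * sin y) := by ring
  have h2 : |(y * (sin u - u) - u * (sin y - y)) / (y * sin y)| ≤ 4 * y ^ 2 := by
    rw [abs_div, abs_of_pos (mul_pos hy hsy0), div_le_iff₀ (mul_pos hy hsy0)]
    have h3 : |y * (sin u - u)| ≤ y * y ^ 3 := by
      rw [abs_mul, abs_of_pos hy]
      exact mul_le_mul_of_nonneg_left ((abs_sin_sub_le u).trans
        (pow_le_pow_left₀ (abs_nonneg u) hu 3)) hy.le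
    have h4 : |u * (sin y - y)| ≤ y * y ^ 3 := by
      rw [abs_mul]
      refine mul_le_mul hu ((abs_sin_sub_le y).trans ?_) (abs_nonneg _) hy.le
      rw [abs_of_pos hy]
    have h5 := abs_sub (y * (sin u - u)) (u * (sin y - y))
    have h6 : 2 * (y * y ^ 3) ≤ 4 * y ^ 2 * (y * sin y) := by
      have : y ^ 3 * (y / 2) ≤ y ^ 3 * sin y := mul_le_mul_of_nonneg_left hsy (by positivity)
      nlinarith
    linarith
  exact (abs_add_le _ _).trans (add_le_add h1 h2)

/-- the hyperbolic case -/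
lemma hyp_approx {v u y : ℝ} (hv : 0 < v) (hy : 0 < y) (hy1 : y ≤ 1) (hu : |u| ≤ y) :
    |(cosh v * cosh y - cosh (v - u)) / (sinh v * sinh y) - u / y| ≤
      y * (cosh v / sinh v) + 4 * y ^ 2 := by
  have hsv : 0 < sinh v := Real.sinh_pos_iff.2 hv
  have hsy : y ≤ sinh y := Real.self_le_sinh_iff.2 hy.le
  have hsy0 : 0 < sinh y := by linarith
  have hu1 : |u| ≤ 1 := hu.trans hy1
  have e : (cosh v * cosh y - cosh (v - u)) / (sinh v * sinh y) - u / y =
      cosh v * (cosh y - cosh u) / (sinh v * sinh y) + (y * (sinh u - u) - u * (sinh y - y)) / (y * sinh y) := by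
    rw [cosh_sub]
    field_simp
    ring
  rw [e]
  have hc : |cosh y - cosh u| ≤ y ^ 2 := by
    have h1 := cosh_sub_one_le (x := y) (by rwa [abs_of_pos hy])
    have h2 := cosh_sub_one_le hu1
    have h3 := Real.one_le_cosh u
    have h4 := Real.one_le_cosh y
    have h5 : u ^ 2 ≤ y ^ 2 := by rw [← sq_abs u]; exact pow_le_pow_left₀ (abs_nonneg u) hu 2
    rw [abs_le]
    constructor <;> linarith
  have h1 : |cosh v * (cosh y - cosh u) / (sinh v * sinh y)| ≤ y * (cosh v / sinh v) := by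
    rw [abs_div, abs_mul, abs_of_pos (mul_pos hsv hsy0), abs_of_pos (Real.cosh_pos v),
      ← mul_div_assoc, div_le_div_iff₀ (mul_pos hsv hsy0) hsv]
    have h3 : |cosh y - cosh u| ≤ y * sinh y := hc.trans (by nlinarith)
    calc cosh v * |cosh y - cosh u| * sinh v ≤ cosh v * (y * sinh y) * sinh v :=
          mul_le_mul_of_nonneg_right (mul_le_mul_of_nonneg_left h3 (Real.cosh_pos v).le) hsv.le
      _ = y * cosh v * (sinh v * sinh y) := by ring
  have h2 : |(y * (sinh u - u) - u * (sinh y - y)) / (y * sinh y)| ≤ 4 * y ^ 2 := by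
    rw [abs_div, abs_of_pos (mul_pos hy hsy0), div_le_iff₀ (mul_pos hy hsy0)]
    have h3 : |y * (sinh u - u)| ≤ y * y ^ 3 := by
      rw [abs_mul, abs_of_pos hy]
      exact mul_le_mul_of_nonneg_left ((abs_sinh_sub_le hu1).trans
        (pow_le_pow_left₀ (abs_nonneg u) hu 3)) hy.le
    have h4 : |u * (sinh y - y)| ≤ y * y ^ 3 := by
      rw [abs_mul]
      refine mul_le_mul hu ((abs_sinh_sub_le (by rwa [abs_of_pos hy])).trans ?_) (abs_nonneg _) hy.le
      rw [abs_of_pos hy]
    have h5 := abs_sub (y * (sinh u - u)) (u * (sinh y - y))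
    have h6 : 2 * (y * y ^ 3) ≤ 4 * y ^ 2 * (y * sinh y) := by
      have : y ^ 3 * y ≤ y ^ 3 * sinh y := mul_le_mul_of_nonneg_left hsy (by positivity)
      nlinarith
    linarith
  exact (abs_add_le _ _).trans (add_le_add h1 h2)

/-- **First variation of the comparison cosine.** -/
theorem cvA_approx (κ : ℝ) {ρ : ℝ} (hρ : Sml κ ρ) {ℓ ε : ℝ} (hℓ : 0 < ℓ) (hε : 0 < ε) :
    ∃ t₀ > 0, ∀ a t c : ℝ, ℓ ≤ a → a ≤ ρ → 0 < t → t ≤ t₀ → |a - c| ≤ t →
      |cvA κ a t c - (a - c) / t| ≤ ε := by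
  unfold cvA
  split_ifs with h1 h2
  · refine ⟨ℓ * ε, by positivity, fun a t c ha _ ht ht0 hc => ?_⟩
    have ha0 : 0 < a := by linarith
    have e : (a ^ 2 + t ^ 2 - c ^ 2) / (2 * a * t) - (a - c) / t = (t ^ 2 - (a - c) ^ 2) / (2 * a * t) := by
      field_simp
      ring
    rw [e]
    have h3 : (a - c) ^ 2 ≤ t ^ 2 := by rw [← sq_abs]; exact pow_le_pow_left₀ (abs_nonneg _) hc 2
    rw [abs_of_nonneg (div_nonneg (by linarith) (by positivity)), div_le_iff₀ (by positivity)]
    have h4 : t * t ≤ t * (a * ε) := mul_le_mul_of_nonneg_left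
      (ht0.trans (mul_le_mul_of_nonneg_right ha hε.le)) ht.le
    nlinarith [sq_nonneg (a - c), mul_pos ha0 hε, mul_pos (mul_pos ha0 hε) ht]
  · have hk : 0 < √κ := Real.sqrt_pos.2 h2
    set k := √κ with hkd
    have hr := hρ h2
    rcases lt_or_ge ρ ℓ with hlt | hge
    · exact ⟨1, one_pos, fun a t c ha haR => absurd (ha.trans haR) (not_le.2 hlt)⟩
    have hm : 0 < sin (k * ℓ) := by
      apply Real.sin_pos_of_pos_of_lt_pi (by positivity)
      have := mul_le_mul_of_nonneg_left hge hk.le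
      linarith [Real.pi_pos]
    -- y / m + 4 y ^ 2 ≤ ε
    obtain ⟨y₀, hy0, hy01, hy⟩ : ∃ y₀ > 0, y₀ ≤ 1 ∧ ∀ y, 0 ≤ y → y ≤ y₀ → y / sin (k * ℓ) + 4 * y ^ 2 ≤ ε := by
      refine ⟨min 1 (ε / (1 / sin (k * ℓ) + 4)), by positivity, min_le_left _ _, fun y h0 h => ?_⟩
      have h3 : y ≤ 1 := h.trans (min_le_left _ _)
      have h4 : y ≤ ε / (1 / sin (k * ℓ) + 4) := h.trans (min_le_right _ _)
      rw [le_div_iff₀ (by positivity)] at h4
      have h5 : y ^ 2 ≤ y := by nlinarith
      have h6 : y / sin (k * ℓ) = y * (1 / sin (k * ℓ)) := by ring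
      rw [h6]
      linarith
    refine ⟨y₀ / k, by positivity, fun a t c ha haR ht ht0 hc => ?_⟩
    have hkt : k * t ≤ y₀ := by rw [le_div_iff₀ hk] at ht0; linarith
    have hkt0 : 0 < k * t := by positivity
    have hsin : sin (k * ℓ) ≤ sin (k * a) := by
      apply Real.sin_le_sin_of_le_of_le_pi_div_two
      · have : 0 < k * ℓ := by positivity
        linarith [Real.pi_pos]
      · have := mul_le_mul_of_nonneg_left haR hk.le
        linarith [Real.pi_pos]
      · exact mul_le_mul_of_nonneg_left ha hk.le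
    have h3 := trig_approx (v := k * a) (u := k * (a - c)) (y := k * t) (by linarith) hkt0
      (hkt.trans hy01) (by rw [abs_mul, abs_of_pos hk]; exact mul_le_mul_of_nonneg_left hc hk.le)
    have e1 : k * a - k * (a - c) = k * c := by ring
    have e2 : k * (a - c) / (k * t) = (a - c) / t := mul_div_mul_left _ _ hk.ne'
    rw [e1, e2] at h3
    refine h3.trans ((add_le_add_left ?_ _).trans (hy _ hkt0.le hkt))
    exact div_le_div_of_nonneg_left hkt0.le hm hsin
  · have hκ : κ < 0 := lt_of_le_of_ne (not_lt.1 h2) h1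
    have hk : 0 < √(-κ) := Real.sqrt_pos.2 (by linarith)
    set k := √(-κ) with hkd
    rcases lt_or_ge ρ ℓ with hlt | hge
    · exact ⟨1, one_pos, fun a t c ha haR => absurd (ha.trans haR) (not_le.2 hlt)⟩
    have hρ0 : 0 < ρ := by linarith
    obtain ⟨c₀, hc0, hc₀⟩ : ∃ c₀ > 0, ∀ a, ℓ ≤ a → a ≤ ρ → cosh (k * a) / sinh (k * a) ≤ c₀ := by
      refine ⟨cosh (k * ρ) / (k * ℓ), by have := Real.cosh_pos (k * ρ); positivity, fun a ha haR => ?_⟩
      have ha0 : 0 < a := by linarith
      have h3 : k * ℓ ≤ sinh (k * a) := (mul_le_mul_of_nonneg_left ha hk.le).trans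
        (Real.self_le_sinh_iff.2 (by positivity))
      have h4 : cosh (k * a) ≤ cosh (k * ρ) := by
        apply Real.cosh_le_cosh.2
        rw [abs_of_pos (by positivity), abs_of_pos (by positivity)]
        exact mul_le_mul_of_nonneg_left haR hk.le
      exact div_le_div₀ (Real.cosh_pos _).le h4 (by positivity) h3
    obtain ⟨y₀, hy0, hy01, hy⟩ : ∃ y₀ > 0, y₀ ≤ 1 ∧ ∀ y, 0 ≤ y → y ≤ y₀ → y * c₀ + 4 * y ^ 2 ≤ ε := by
      refine ⟨min 1 (ε / (c₀ + 4)), by positivity, min_le_left _ _, fun y h0 h => ?_⟩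
      have h3 : y ≤ 1 := h.trans (min_le_left _ _)
      have h4 : y ≤ ε / (c₀ + 4) := h.trans (min_le_right _ _)
      rw [le_div_iff₀ (by positivity)] at h4
      have h5 : y ^ 2 ≤ y := by nlinarith
      linarith
    refine ⟨y₀ / k, by positivity, fun a t c ha haR ht ht0 hc => ?_⟩
    have ha0 : 0 < a := by linarith
    have hkt : k * t ≤ y₀ := by rw [le_div_iff₀ hk] at ht0; linarith
    have hkt0 : 0 < k * t := by positivity
    have h3 := hyp_approx (v := k * a) (u := k * (a - c)) (y := k * t) (by positivity) hkt0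
      (hkt.trans hy01) (by rw [abs_mul, abs_of_pos hk]; exact mul_le_mul_of_nonneg_left hc hk.le)
    have e1 : k * a - k * (a - c) = k * c := by ring
    have e2 : k * (a - c) / (k * t) = (a - c) / t := mul_div_mul_left _ _ hk.ne'
    rw [e1, e2] at h3
    refine h3.trans ((add_le_add_left ?_ _).trans (hy _ hkt0.le hkt))
    exact mul_le_mul_of_nonneg_left (hc₀ a ha haR) hkt0.le

end Vale.Agent.P233.Str
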