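import Vale.Agent.P233.H933.Str1
import Vale.Agent.P233.Bd3.B10

/-!
# P233-RCDA, G3: strainers

* `cc κ p a b` : the cosine of the comparison angle at `p`; `DD p a z` : the difference quotient
  of `d_a` between `p` and `z`.
* `IsStr κ ρ δ a b p` : `(a i, b i)` is a `(k, δ)`-strainer at `p`, at distances `< ρ`.
* `isOpen_isStr` : strained points are an open set.
* `Rad M κ ρ` : `ρ` is an admissible radius; `exists_rad`.
-/

set_option linter.all false

open Real Filter Topology Set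

namespace Vale.Agent.P233.Str

open Vale.Agent.P233.AB

/-! ### trigonometry -/

lemma cos_arccos_le {v d : ℝ} (h : v ≤ d) (hd : -1 ≤ d) : cos (arccos v) ≤ d := by
  rcases lt_or_ge v (-1) with h1 | h1
  · rw [Real.arccos_of_le_neg_one h1.le, Real.cos_pi]
    exact hd
  rcases le_or_gt v 1 with h2 | h2
  · rwa [Real.cos_arccos h1 h2]
  · exact (Real.cos_le_one _).trans (h2.le.trans h)

lemma cos_add_cos_ge {α β γ : ℝ} (hα : 0 ≤ α) (hα' : α ≤ π) (hβ : 0 ≤ β) (hβ' : β ≤ π)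
    (hγ : 0 ≤ γ) (hγ' : γ ≤ π) (h : α + β + γ ≤ 2 * π) :
    -√(2 * (1 + cos γ)) ≤ cos α + cos β := by
  have hπ := Real.pi_pos
  have e1 : √(2 * (1 + cos γ)) = 2 * cos (γ / 2) := by
    have h0 : 0 ≤ cos (γ / 2) := Real.cos_nonneg_of_neg_pi_div_two_le_of_le (by linarith) (by linarith)
    have h1 : 2 * (1 + cos γ) = (2 * cos (γ / 2)) ^ 2 := by
      have := Real.cos_sq (γ / 2)
      rw [show 2 * (γ / 2) = γ by ring] at this
      nlinarith
    rw [h1, Real.sqrt_sq (by positivity)]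
  have e2 : cos α + cos β = 2 * cos ((α + β) / 2) * cos ((α - β) / 2) := by
    rw [← Real.cos_add_cos]
  have h0 : 0 ≤ cos ((α - β) / 2) :=
    Real.cos_nonneg_of_neg_pi_div_two_le_of_le (by linarith) (by linarith)
  have h1 := Real.cos_le_one ((α - β) / 2)
  have h2 : -cos (γ / 2) ≤ cos ((α + β) / 2) := by
    rw [← Real.cos_pi_sub]
    exact Real.cos_le_cos_of_nonneg_of_le_pi (by positivity) (by linarith) (by linarith)
  have h3 : 0 ≤ cos (γ / 2) := Real.cos_nonneg_of_neg_pi_div_two_le_of_le (by linarith) (by linarith)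
  rw [e1, e2]
  rcases le_or_gt 0 (cos ((α + β) / 2)) with h4 | h4
  · nlinarith [mul_nonneg h4 h0]
  · nlinarith [mul_nonneg (neg_nonneg.2 h4.le) (sub_nonneg.2 h1)]

/-! ### comparison cosines -/

section

variable {M : Type*} [MetricSpace M]

/-- the cosine of the comparison angle at `p` -/
noncomputable def cc (κ : ℝ) (p a b : M) : ℝ := cvA κ (dist p a) (dist p b) (dist a b)

/-- the difference quotient of the distance from `a` between `p` and `z` -/
noncomputable def DD (p a z : M) : ℝ := (dist p a - dist z a) / dist p z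

lemma cc_comm (κ : ℝ) (p a b : M) : cc κ p a b = cc κ p b a := by
  unfold cc
  rw [cvA_comm, dist_comm a b]

lemma abs_DD_le (p a z : M) : |DD p a z| ≤ 1 := by
  unfold DD
  rw [abs_div, abs_of_nonneg dist_nonneg]
  refine div_le_one_of_le₀ ?_ dist_nonneg
  exact abs_dist_sub_le p z a

lemma DD_mul {p a z : M} (h : p ≠ z) : dist z a - dist p a = -(dist p z * DD p a z) := by
  unfold DD
  rw [mul_div_cancel₀ _ (dist_pos.2 h).ne']
  ring

lemma DD_swap (p a z : M) : DD z a p = -DD p a z := by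
  unfold DD
  rw [dist_comm z p]
  ring

lemma DD_self {p a z : M} (h : p ≠ z) (hz : dist p z + dist z a = dist p a) : DD p a z = 1 := by
  unfold DD
  rw [div_eq_one_iff_eq (dist_pos.2 h).ne']
  linarith

lemma cc_antipode {κ R : ℝ} (hR : Sml κ R) {q x y : M} (h : dist q x = dist q y) (h0 : q ≠ x)
    (hxy : dist x y = 2 * dist q x) (hqR : dist q x ≤ 2 * R) : cc κ q x y = -1 := by
  unfold cc
  rw [← h, hxy]
  have h1 : 0 < dist q x := dist_pos.2 h0
  generalize dist q x = t at *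
  unfold cvA
  split_ifs with h2 h3
  · field_simp
    ring
  · have hs := hR.sin_pos h3 h1 hqR
    rw [show √κ * (2 * t) = 2 * (√κ * t) by ring, Real.cos_two_mul, div_eq_iff (by positivity)]
    have := Real.sin_sq_add_cos_sq (√κ * t)
    nlinarith
  · have hs := sinh_pos' h2 h3 h1
    rw [show √(-κ) * (2 * t) = 2 * (√(-κ) * t) by ring, Real.cosh_two_mul, div_eq_iff (by positivity)]
    have := Real.cosh_sq (√(-κ) * t)
    nlinarith

/-- an admissible radius -/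
structure Rad (M : Type*) [MetricSpace M] (κ ρ : ℝ) : Prop where
  pos : 0 < ρ
  sml : Sml κ ρ
  geo : ∀ x y : M, ∀ s t : ℝ, 0 ≤ s → 0 ≤ t → s + t = dist x y → ∃ w, dist x w = s ∧ dist w y = t
  mono : ∀ o p x w : M, dist o w + dist w x = dist o x → o ≠ w → o ≠ p →
    dist o x ≤ ρ → dist o p ≤ ρ → cc κ o w p ≤ cc κ o x p
  adj : ∀ o p x y : M, dist x o + dist o y = dist x y → o ≠ x → o ≠ y → o ≠ p →
    dist o x ≤ ρ → dist o y ≤ ρ → dist o p ≤ ρ → 0 ≤ cc κ o x p + cc κ o y p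
  sum : ∀ z x₁ x₂ x₃ : M, z ≠ x₁ → z ≠ x₂ → z ≠ x₃ → dist z x₁ ≤ ρ → dist z x₂ ≤ ρ →
    dist z x₃ ≤ ρ → cang κ (dist z x₁) (dist z x₂) (dist x₁ x₂) +
      cang κ (dist z x₂) (dist z x₃) (dist x₂ x₃) +
      cang κ (dist z x₁) (dist z x₃) (dist x₁ x₃) ≤ 2 * π

theorem exists_rad [CompleteSpace M] {κ : ℝ} (h : T.IsAlexandrov M κ) :
    ∃ ρ, Rad M κ ρ := by
  have hA : IsAlexandrov M κ := T_alex h
  obtain ⟨r₀, hr0, H⟩ := hA.angle_sum
  obtain ⟨r₁, hr1, hs⟩ : ∃ r₁ > 0, Sml κ r₁ := by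
    rcases lt_or_ge 0 κ with hκ | hκ
    · have h0 : 0 < √κ := Real.sqrt_pos.2 hκ
      refine ⟨π / (16 * √κ), by positivity, fun _ => ?_⟩
      field_simp
      norm_num
    · exact ⟨1, one_pos, fun h' => absurd h' (not_lt.2 hκ)⟩
  have hρ : Sml κ (min r₀ r₁) := fun hκ =>
    (mul_le_mul_of_nonneg_left (min_le_right _ _) (Real.sqrt_nonneg _)).trans (hs hκ)
  have hρ0 : 0 < min r₀ r₁ := lt_min hr0 hr1
  refine ⟨min r₀ r₁, hρ0, hρ, hA.geodesic, ?_, ?_, ?_⟩
  · intro o p x w hw how hop hox hopR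
    have h1 := hA.mono_cv hρ hw (dist_pos.2 how) (dist_pos.2 hop) hox hopR
    exact h1
  · intro o p x y hxy hox hoy hop hoxR hoyR hopR
    have hpx : dist p x ≤ 2 * min r₀ r₁ := by
      have := dist_triangle p o x
      rw [dist_comm p o] at this
      linarith
    have hpy : dist p y ≤ 2 * min r₀ r₁ := by
      have := dist_triangle p o y
      rw [dist_comm p o] at this
      linarith
    have hC := hA.comparison p x y o hxy (perim_lt hρ hρ0 (by rw [← hxy, dist_comm x o]; linarith))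
    have h1 := cvA_adj hρ (s := dist x o) (t := dist o y) (r := dist p o)
      (by rw [dist_comm]; exact dist_pos.2 hox) (dist_pos.2 hoy)
      (by rw [dist_comm]; exact dist_pos.2 hop)
      (by rw [dist_comm]; linarith) (by linarith) (by rw [dist_comm]; linarith) hC
    unfold cc
    rwa [dist_comm x o, dist_comm p o, dist_comm p x, dist_comm p y] at h1
  · intro z x₁ x₂ x₃ n1 n2 n3 d1 d2 d3
    exact H z x₁ x₂ x₃ n1 n2 n3 (d1.trans (min_le_left _ _)) (d2.trans (min_le_left _ _))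
      (d3.trans (min_le_left _ _))

/-- the first variation estimate -/
def Apx (κ ρ ℓ ε t₀ : ℝ) : Prop :=
  ∀ a t c : ℝ, ℓ ≤ a → a ≤ ρ → 0 < t → t ≤ t₀ → |a - c| ≤ t → |cvA κ a t c - (a - c) / t| ≤ ε

lemma Apx.abs_le {κ ρ ℓ ε t₀ : ℝ} (h : Apx κ ρ ℓ ε t₀) {p a z : M} (hℓ : ℓ ≤ dist p a)
    (hρ : dist p a ≤ ρ) (hpz : p ≠ z) (hz : dist p z ≤ t₀) : |cc κ p a z - DD p a z| ≤ ε := by
  have h1 := h (dist p a) (dist p z) (dist a z) hℓ hρ (dist_pos.2 hpz) hz (by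
    rw [dist_comm a z]
    exact abs_dist_sub_le p z a)
  unfold cc DD
  rwa [dist_comm z a]

/-- `d_a + d_b` is almost constant if `a`, `b` are almost opposite -/
theorem Rad.sum_DD {κ ρ ℓ ε t₀ δ : ℝ} (hR : Rad M κ ρ) (hA : Apx κ ρ ℓ ε t₀) (hℓ : 0 < ℓ)
    (hδ : 0 ≤ δ) {p a b z : M} (ha : ℓ ≤ dist p a) (hb : ℓ ≤ dist p b) (haρ : dist p a ≤ ρ)
    (hbρ : dist p b ≤ ρ) (hab : cc κ p a b ≤ -1 + δ) (hpz : p ≠ z) (hz : dist p z ≤ t₀)
    (hzρ : dist p z ≤ ρ) : -(√(2 * δ) + 2 * ε) ≤ DD p a z + DD p b z := by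
  have hpa : p ≠ a := dist_pos.1 (by linarith)
  have hpb : p ≠ b := dist_pos.1 (by linarith)
  have h1 := hR.sum p a z b hpa hpz hpb haρ hzρ hbρ
  rw [cang_eq_arccos, cang_eq_arccos, cang_eq_arccos] at h1
  have h2 := cos_add_cos_ge (Real.arccos_nonneg _) (Real.arccos_le_pi _) (Real.arccos_nonneg _)
    (Real.arccos_le_pi _) (Real.arccos_nonneg _) (Real.arccos_le_pi _) h1
  have e1 := abs_le.1 (hA.abs_le ha haρ hpz hz)
  have e2 := abs_le.1 (hA.abs_le hb hbρ hpz hz)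
  have d1 := abs_le.1 (abs_DD_le p a z)
  have d2 := abs_le.1 (abs_DD_le p b z)
  have hε : 0 ≤ ε := by linarith
  have c1 : cos (arccos (cvA κ (dist p a) (dist p z) (dist a z))) ≤ DD p a z + ε :=
    cos_arccos_le (by have := e1.2; unfold cc at this; linarith) (by linarith)
  have c2 : cos (arccos (cvA κ (dist p z) (dist p b) (dist z b))) ≤ DD p b z + ε := by
    refine cos_arccos_le ?_ (by linarith)
    have := e2.2
    rw [cc_comm] at this
    unfold cc at this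
    linarith
  have c3 : cos (arccos (cvA κ (dist p a) (dist p b) (dist a b))) ≤ -1 + δ :=
    cos_arccos_le hab (by linarith)
  have c4 : √(2 * (1 + cos (arccos (cvA κ (dist p a) (dist p b) (dist a b))))) ≤ √(2 * δ) :=
    Real.sqrt_le_sqrt (by linarith)
  linarith

/-- moving towards `b` -/
theorem Rad.DD_le {κ ρ ℓ ε t₀ : ℝ} (hR : Rad M κ ρ) (hA : Apx κ ρ ℓ ε t₀) (hℓ : 0 < ℓ)
    {p a b z : M} (ha : ℓ ≤ dist p a) (haρ : dist p a ≤ ρ) (hbρ : dist p b ≤ ρ) (hpz : p ≠ z)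
    (hz : dist p z ≤ t₀) (hb : dist p z + dist z b = dist p b) : DD p a z ≤ cc κ p a b + ε := by
  have hpa : p ≠ a := dist_pos.1 (by linarith)
  have h1 := hR.mono p a b z hb hpz hpa hbρ haρ
  have e1 := abs_le.1 (hA.abs_le ha haρ hpz hz)
  rw [cc_comm κ p z a, cc_comm κ p b a] at h1
  linarith

/-- semiconcavity -/
theorem Rad.DD_add {κ ρ ℓ ε t₀ : ℝ} (hR : Rad M κ ρ) (hA : Apx κ ρ ℓ ε t₀) (hℓ : 0 < ℓ)
    {q a x y : M} (ha : ℓ ≤ dist q a) (haρ : dist q a ≤ ρ) (hqx : q ≠ x) (hqy : q ≠ y)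
    (hx : dist q x ≤ t₀) (hy : dist q y ≤ t₀) (hxρ : dist q x ≤ ρ) (hyρ : dist q y ≤ ρ)
    (hxy : dist x q + dist q y = dist x y) : -(2 * ε) ≤ DD q a x + DD q a y := by
  have hqa : q ≠ a := dist_pos.1 (by linarith)
  have h1 := hR.adj q a x y hxy hqx hqy hqa hxρ hyρ haρ
  have e1 := abs_le.1 (hA.abs_le ha haρ hqx hx)
  have e2 := abs_le.1 (hA.abs_le ha haρ hqy hy)
  rw [cc_comm κ q x a, cc_comm κ q y a] at h1
  linarith

/-! ### strainers -/

/-- `(a i, b i)` is a `(k, δ)`-strainer at `p` -/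
structure IsStr (κ ρ δ : ℝ) {k : ℕ} (a b : Fin k → M) (p : M) : Prop where
  ha : ∀ i, p ≠ a i
  hb : ∀ i, p ≠ b i
  haρ : ∀ i, dist p (a i) < ρ
  hbρ : ∀ i, dist p (b i) < ρ
  opp : ∀ i, cc κ p (a i) (b i) < -1 + δ
  aa : ∀ i j, i ≠ j → cc κ p (a i) (a j) < δ
  ab : ∀ i j, i ≠ j → cc κ p (a i) (b j) < δ
  bb : ∀ i j, i ≠ j → cc κ p (b i) (b j) < δ

theorem IsStr.mono {κ ρ δ δ' : ℝ} {k : ℕ} {a b : Fin k → M} {p : M} (h : IsStr κ ρ δ a b p)
    (hδ : δ ≤ δ') : IsStr κ ρ δ' a b p where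
  ha := h.ha
  hb := h.hb
  haρ := h.haρ
  hbρ := h.hbρ
  opp i := (h.opp i).trans_le (by linarith)
  aa i j hij := (h.aa i j hij).trans_le hδ
  ab i j hij := (h.ab i j hij).trans_le hδ
  bb i j hij := (h.bb i j hij).trans_le hδ

lemma continuousAt_cvA {κ R a b c : ℝ} (hR : Sml κ R) (ha : 0 < a) (hb : 0 < b)
    (haR : a ≤ 2 * R) (hbR : b ≤ 2 * R) :
    ContinuousAt (fun q : ℝ × ℝ => cvA κ q.1 q.2 c) (a, b) := by
  unfold cvA
  split_ifs with h1 h2
  · refine ContinuousAt.div (by fun_prop) (by fun_prop) ?_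
    dsimp only
    positivity
  · have e1 := hR.sin_pos h2 ha haR
    have e2 := hR.sin_pos h2 hb hbR
    refine ContinuousAt.div (by fun_prop) (by fun_prop) ?_
    dsimp only
    positivity
  · have e1 := sinh_pos' h1 h2 ha
    have e2 := sinh_pos' h1 h2 hb
    refine ContinuousAt.div (by fun_prop) (by fun_prop) ?_
    dsimp only
    positivity

lemma continuousAt_cc {κ ρ : ℝ} (hR : Sml κ ρ) {p a b : M} (ha : p ≠ a) (hb : p ≠ b)
    (haρ : dist p a ≤ ρ) (hbρ : dist p b ≤ ρ) : ContinuousAt (fun x => cc κ x a b) p := by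
  unfold cc
  have h1 := dist_pos.2 ha
  have h2 := dist_pos.2 hb
  have h3 := continuousAt_cvA (c := dist a b) hR h1 h2 (by linarith) (by linarith)
  exact ContinuousAt.comp (f := fun x : M => (dist x a, dist x b)) (x := p) h3 (by fun_prop)

theorem eventually_isStr {κ ρ δ : ℝ} (hR : Sml κ ρ) {k : ℕ} {a b : Fin k → M} {p : M}
    (h : IsStr κ ρ δ a b p) : ∀ᶠ x in 𝓝 p, IsStr κ ρ δ a b x := by
  have h1 : ∀ᶠ x in 𝓝 p, ∀ i, x ≠ a i := eventually_all.2 fun i =>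
    (isOpen_ne.eventually_mem (h.ha i))
  have h2 : ∀ᶠ x in 𝓝 p, ∀ i, x ≠ b i := eventually_all.2 fun i =>
    (isOpen_ne.eventually_mem (h.hb i))
  have h3 : ∀ᶠ x in 𝓝 p, ∀ i, dist x (a i) < ρ := eventually_all.2 fun i =>
    (show ContinuousAt (fun x => dist x (a i)) p by fun_prop).eventually_lt_const (h.haρ i)
  have h4 : ∀ᶠ x in 𝓝 p, ∀ i, dist x (b i) < ρ := eventually_all.2 fun i =>
    (show ContinuousAt (fun x => dist x (b i)) p by fun_prop).eventually_lt_const (h.hbρ i)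
  have h5 : ∀ᶠ x in 𝓝 p, ∀ i, cc κ x (a i) (b i) < -1 + δ := eventually_all.2 fun i =>
    (continuousAt_cc hR (h.ha i) (h.hb i) (h.haρ i).le (h.hbρ i).le).eventually_lt_const (h.opp i)
  have h6 : ∀ᶠ x in 𝓝 p, ∀ i j, i ≠ j → cc κ x (a i) (a j) < δ :=
    eventually_all.2 fun i => eventually_all.2 fun j => by
      by_cases hij : i = j
      · exact Eventually.of_forall fun _ h' => absurd hij h'
      · filter_upwards [(continuousAt_cc hR (h.ha i) (h.ha j) (h.haρ i).le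
          (h.haρ j).le).eventually_lt_const (h.aa i j hij)] with x hx _ using hx
  have h7 : ∀ᶠ x in 𝓝 p, ∀ i j, i ≠ j → cc κ x (a i) (b j) < δ :=
    eventually_all.2 fun i => eventually_all.2 fun j => by
      by_cases hij : i = j
      · exact Eventually.of_forall fun _ h' => absurd hij h'
      · filter_upwards [(continuousAt_cc hR (h.ha i) (h.hb j) (h.haρ i).le
          (h.hbρ j).le).eventually_lt_const (h.ab i j hij)] with x hx _ using hx
  have h8 : ∀ᶠ x in 𝓝 p, ∀ i j, i ≠ j → cc κ x (b i) (b j) < δ :=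
    eventually_all.2 fun i => eventually_all.2 fun j => by
      by_cases hij : i = j
      · exact Eventually.of_forall fun _ h' => absurd hij h'
      · filter_upwards [(continuousAt_cc hR (h.hb i) (h.hb j) (h.hbρ i).le
          (h.hbρ j).le).eventually_lt_const (h.bb i j hij)] with x hx _ using hx
  filter_upwards [h1, h2, h3, h4, h5, h6, h7, h8] with x g1 g2 g3 g4 g5 g6 g7 g8
    using ⟨g1, g2, g3, g4, g5, g6, g7, g8⟩

/-- uniform neighbourhood -/
theorem exists_unif {κ ρ δ : ℝ} (hR : Sml κ ρ) {k : ℕ} {a b : Fin k → M} {p : M}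
    (h : IsStr κ ρ δ a b p) : ∃ r > 0, ∃ ℓ > 0, ∀ x ∈ Metric.ball p r, IsStr κ ρ δ a b x ∧
      (∀ i, ℓ ≤ dist x (a i)) ∧ ∀ i, ℓ ≤ dist x (b i) := by
  obtain ⟨ℓ, hℓ, h1, h2⟩ : ∃ ℓ > 0, (∀ i, ℓ < dist p (a i)) ∧ ∀ i, ℓ < dist p (b i) := by
    have key : ∀ c : Fin k → M, (∀ i, p ≠ c i) → ∃ ℓ > 0, ∀ i, ℓ < dist p (c i) := by
      intro c hc
      have : ∀ᶠ ℓ in 𝓝[>] (0 : ℝ), ∀ i, ℓ < dist p (c i) := eventually_all.2 fun i =>
        eventually_nhdsWithin_of_eventually_nhds (gt_mem_nhds (dist_pos.2 (hc i)))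
      obtain ⟨ℓ, h1, h2⟩ := (this.and self_mem_nhdsWithin).exists
      exact ⟨ℓ, h2, h1⟩
    obtain ⟨ℓ₁, g1, g2⟩ := key a h.ha
    obtain ⟨ℓ₂, g3, g4⟩ := key b h.hb
    exact ⟨min ℓ₁ ℓ₂, lt_min g1 g3, fun i => (min_le_left _ _).trans_lt (g2 i),
      fun i => (min_le_right _ _).trans_lt (g4 i)⟩
  have h3 : ∀ᶠ x in 𝓝 p, ∀ i, ℓ < dist x (a i) := eventually_all.2 fun i =>
    (show ContinuousAt (fun x => dist x (a i)) p by fun_prop).eventually_const_lt (h1 i)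
  have h4 : ∀ᶠ x in 𝓝 p, ∀ i, ℓ < dist x (b i) := eventually_all.2 fun i =>
    (show ContinuousAt (fun x => dist x (b i)) p by fun_prop).eventually_const_lt (h2 i)
  obtain ⟨r, hr, h5⟩ := Metric.eventually_nhds_iff_ball.1 ((eventually_isStr hR h).and (h3.and h4))
  exact ⟨r, hr, ℓ, hℓ, fun x hx => ⟨(h5 x hx).1, fun i => ((h5 x hx).2.1 i).le,
    fun i => ((h5 x hx).2.2 i).le⟩⟩

end

end Vale.Agent.P233.Str
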