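import Mathlib.Topology.MetricSpace.Cauchy
import Mathlib.Analysis.SpecificLimits.Basic
import Mathlib.Analysis.Normed.Group.Constructions
import Mathlib.Data.Real.Basic

/-!
# P233-RCDA, G4: an openness criterion

`exists_eq_of_step` : a continuous map to `ℝᵏ` whose coordinates can be corrected one after the
other is open.
-/

set_option linter.all false

open Filter Topology Set Metric

namespace Vale.Agent.P233.Str

variable {M : Type*} [MetricSpace M] [CompleteSpace M]

/-- iteration -/
lemma exists_limit {φ : M → ℝ} (hφ : Continuous φ) (hφ0 : ∀ x, 0 ≤ φ x) {p : M} {r q : ℝ}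
    (hq0 : 0 ≤ q) (hq : q < 1)
    (h : ∀ x ∈ ball p r, φ x ≤ φ p → ∃ z, dist x z ≤ φ x ∧ φ z ≤ q * φ x)
    (hr : φ p / (1 - q) < r) : ∃ x ∈ ball p r, φ x = 0 := by
  classical
  have h1q : 0 < 1 - q := by linarith
  choose! g hg1 hg2 using h
  let s : ℕ → M := fun n => Nat.rec p (fun _ x => g x) n
  have hs0 : s 0 = p := rfl
  have hs : ∀ n, s (n + 1) = g (s n) := fun n => rfl
  have key : ∀ n, φ (s n) ≤ q ^ n * φ p ∧ dist p (s n) ≤ φ p * (1 - q ^ n) / (1 - q) := by
    intro n
    induction n with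
    | zero =>
      rw [hs0]
      simp
    | succ n ih =>
      obtain ⟨ih1, ih2⟩ := ih
      have hqn : 0 ≤ q ^ n := pow_nonneg hq0 n
      have hqn1 : q ^ n ≤ 1 := pow_le_one₀ hq0 hq.le
      have hmem : s n ∈ ball p r := by
        rw [mem_ball, dist_comm]
        refine lt_of_le_of_lt (ih2.trans ?_) hr
        exact div_le_div_of_nonneg_right (by nlinarith [hφ0 p]) h1q.le
      have hle : φ (s n) ≤ φ p := ih1.trans (by nlinarith [hφ0 p])
      have g1 := hg1 (s n) hmem hle
      have g2 := hg2 (s n) hmem hle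
      refine ⟨?_, ?_⟩
      · rw [hs, pow_succ]
        nlinarith
      · have h3 := dist_triangle p (s n) (s (n + 1))
        rw [hs] at h3 ⊢
        have h4 : φ p * (1 - q ^ (n + 1)) / (1 - q) =
            φ p * (1 - q ^ n) / (1 - q) + q ^ n * φ p := by
          field_simp
          ring
        rw [h4]
        linarith
  have hcau : CauchySeq s := by
    refine cauchySeq_of_le_geometric q (φ p) hq fun n => ?_
    obtain ⟨ih1, ih2⟩ := key n
    have hqn : 0 ≤ q ^ n := pow_nonneg hq0 n
    have hqn1 : q ^ n ≤ 1 := pow_le_one₀ hq0 hq.le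
    have hmem : s n ∈ ball p r := by
      rw [mem_ball, dist_comm]
      refine lt_of_le_of_lt (ih2.trans ?_) hr
      exact div_le_div_of_nonneg_right (by nlinarith [hφ0 p]) h1q.le
    have hle : φ (s n) ≤ φ p := ih1.trans (by nlinarith [hφ0 p])
    rw [hs]
    exact (hg1 (s n) hmem hle).trans (by linarith)
  obtain ⟨x, hx⟩ := cauchySeq_tendsto_of_complete hcau
  refine ⟨x, ?_, ?_⟩
  · rw [mem_ball, dist_comm]
    refine lt_of_le_of_lt ?_ hr
    refine le_of_tendsto (tendsto_const_nhds.dist hx) (Eventually.of_forall fun n => ?_)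
    refine (key n).2.trans (div_le_div_of_nonneg_right ?_ h1q.le)
    have hqn : 0 ≤ q ^ n := pow_nonneg hq0 n
    nlinarith [hφ0 p]
  · refine le_antisymm ?_ (hφ0 x)
    have h1 : Tendsto (fun n => φ (s n)) atTop (𝓝 (φ x)) := (hφ.tendsto x).comp hx
    have h2 : Tendsto (fun n => q ^ n * φ p) atTop (𝓝 (0 * φ p)) :=
      (tendsto_pow_atTop_nhds_zero_of_lt_one hq0 hq).mul_const _
    rw [zero_mul] at h2
    exact le_of_tendsto_of_tendsto' h1 h2 fun n => (key n).1

/-- **Openness criterion.** -/
theorem exists_eq_of_step {k : ℕ} {f : M → Fin k → ℝ} (hf : Continuous f) {p : M} {r s₀ θ : ℝ}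
    (hθ0 : 0 ≤ θ) (hθ : k * θ ≤ 1 / 2)
    (h : ∀ x ∈ ball p r, ∀ i, ∀ s : ℝ, |s| ≤ s₀ → ∃ z, dist x z ≤ |s| ∧
      |f z i - f x i - s| ≤ θ * |s| ∧ ∀ j, j ≠ i → |f z j - f x j| ≤ θ * |s|)
    {v : Fin k → ℝ} (hv : ∑ i, |v i - f p i| ≤ s₀) (hr : 2 * k * ∑ i, |v i - f p i| < r)
    (hr0 : 0 < r) : ∃ x ∈ ball p r, f x = v := by
  rcases Nat.eq_zero_or_pos k with hk | hk
  · subst hk
    exact ⟨p, mem_ball_self hr0, Subsingleton.elim _ _⟩
  have hk0 : (0 : ℝ) < k := by exact_mod_cast hk
  have hk1 : (1 : ℝ) ≤ k := by exact_mod_cast hk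
  let φ : M → ℝ := fun x => ∑ i, |v i - f x i|
  have hφ : Continuous φ := by
    refine continuous_finsetSum _ fun i _ => ?_
    exact (continuous_const.sub ((continuous_apply i).comp hf)).abs
  have hφ0 : ∀ x, 0 ≤ φ x := fun x => Finset.sum_nonneg fun i _ => abs_nonneg _
  have hq : 1 - 1 / (2 * (k : ℝ)) < 1 := by
    have : 0 < 1 / (2 * (k : ℝ)) := by positivity
    linarith
  have hq0 : 0 ≤ 1 - 1 / (2 * (k : ℝ)) := by
    have : 1 / (2 * (k : ℝ)) ≤ 1 := by
      rw [div_le_one (by positivity)]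
      linarith
    linarith
  obtain ⟨x, hx, hx0⟩ := exists_limit hφ hφ0 (p := p) (r := r) hq0 hq (by
    intro x hx hxp
    -- the coordinate with the largest error
    obtain ⟨i, -, hi⟩ := Finset.exists_max_image Finset.univ (fun i => |v i - f x i|)
      (Finset.univ_nonempty_iff.2 ⟨⟨0, hk⟩⟩)
    have hle : |v i - f x i| ≤ φ x :=
      Finset.single_le_sum (f := fun i => |v i - f x i|) (fun i _ => abs_nonneg _)
        (Finset.mem_univ i)
    have hge : φ x ≤ k * |v i - f x i| := by
      have := Finset.sum_le_card_nsmul Finset.univ (fun i => |v i - f x i|) _ fun j _ =>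
        hi j (Finset.mem_univ j)
      simpa using this
    obtain ⟨z, hz, hz1, hz2⟩ := h x hx i (v i - f x i) (hle.trans (hxp.trans hv))
    refine ⟨z, hz.trans hle, ?_⟩
    -- new error
    have h1 : φ z ≤ φ x - |v i - f x i| + k * (θ * |v i - f x i|) := by
      have h2 : ∀ j, |v j - f z j| ≤ |v j - f x j| - (if j = i then |v i - f x i| else 0) +
          θ * |v i - f x i| := by
        intro j
        by_cases hj : j = i
        · subst hj
          rw [if_pos rfl, sub_self, zero_add]
          have e : v j - f z j = -(f z j - f x j - (v j - f x j)) := by ring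
          rw [e, abs_neg]
          exact hz1
        · rw [if_neg hj, sub_zero]
          have e : v j - f z j = (v j - f x j) - (f z j - f x j) := by ring
          rw [e]
          exact (abs_sub _ _).trans (add_le_add le_rfl (hz2 j hj))
      have h3 := Finset.sum_le_sum fun j (_ : j ∈ Finset.univ) => h2 j
      rw [Finset.sum_add_distrib, Finset.sum_sub_distrib] at h3
      simpa using h3
    have h4 : k * (θ * |v i - f x i|) ≤ 1 / 2 * |v i - f x i| := by
      rw [← mul_assoc]
      exact mul_le_mul_of_nonneg_right hθ (abs_nonneg _)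
    have h5 : φ x / (2 * k) ≤ 1 / 2 * |v i - f x i| := by
      rw [div_le_iff₀ (by positivity)]
      linarith
    have h6 : (1 - 1 / (2 * (k : ℝ))) * φ x = φ x - φ x / (2 * k) := by ring
    rw [h6]
    linarith) (by
    have : φ p / (1 - (1 - 1 / (2 * (k : ℝ)))) = 2 * k * φ p := by
      field_simp
      ring
    rw [this]
    exact hr)
  refine ⟨x, hx, funext fun i => ?_⟩
  have h1 := (Finset.sum_eq_zero_iff_of_nonneg fun i _ => abs_nonneg (v i - f x i)).1 hx0 i
    (Finset.mem_univ i)
  have h2 := abs_eq_zero.1 h1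
  linarith

end Vale.Agent.P233.Str
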