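import Vale.Agent.P233.H933.Str2
import Vale.Agent.P233.H933.Str3
import Mathlib.Topology.MetricSpace.HausdorffDimension

/-!
# P233-RCDA, G4 + G5: strainer maps are open; the maximal strainer is a chart

* `stm a x i = dist x (a i)` : the strainer map.
* `open_of_isStr` : it is open at strained points.
* `chart_of_isStr` : it is bi-Lipschitz if there is no longer strainer.
* `exists_chart` : existence of a chart.
-/

set_option linter.all false

open Real Filter Topology Set Metric MeasureTheory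
open scoped ENNReal NNReal

namespace Vale.Agent.P233.Str

open Vale.Agent.P233.AB

variable {M : Type*} [MetricSpace M] {κ ρ : ℝ}

/-- the strainer map -/
def stm {k : ℕ} (a : Fin k → M) (x : M) (i : Fin k) : ℝ := dist x (a i)

lemma lipschitz_stm {k : ℕ} (a : Fin k → M) : LipschitzWith 1 (stm a) := by
  refine LipschitzWith.of_dist_le_mul fun x y => ?_
  rw [NNReal.coe_one, one_mul]
  refine (dist_pi_le_iff dist_nonneg).2 fun i => ?_
  rw [Real.dist_eq]
  exact abs_dist_sub_le x y (a i)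

/-- **G4: strainer maps are open.** -/
theorem open_of_isStr [CompleteSpace M] (hR : Rad M κ ρ) {δ : ℝ} {k : ℕ} {a b : Fin k → M} {p : M}
    (hS : IsStr κ ρ δ a b p) (hδ : 0 ≤ δ) (hk : k * (δ + √(2 * δ)) < 1 / 2) :
    ∀ s > 0, ∃ c > 0, ball (stm a p) c ⊆ stm a '' ball p s := by
  intro s hs
  obtain ⟨r, hr, ℓ, hℓ, hU⟩ := exists_unif hR.sml hS
  -- the error `ε`
  obtain ⟨ε, hε, hkε⟩ : ∃ ε > 0, k * (δ + √(2 * δ) + 3 * ε) ≤ 1 / 2 := by
    refine ⟨(1 / 2 - k * (δ + √(2 * δ))) / (3 * (k + 1)), ?_, ?_⟩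
    · have : 0 < 1 / 2 - k * (δ + √(2 * δ)) := by linarith
      positivity
    · have h1 : 0 < 1 / 2 - k * (δ + √(2 * δ)) := by linarith
      have h2 : (k : ℝ) * (3 * ((1 / 2 - k * (δ + √(2 * δ))) / (3 * (k + 1)))) ≤
          1 / 2 - k * (δ + √(2 * δ)) := by
        have e : (k : ℝ) * (3 * ((1 / 2 - k * (δ + √(2 * δ))) / (3 * (k + 1)))) =
            (k / (k + 1)) * (1 / 2 - k * (δ + √(2 * δ))) := by field_simp
        rw [e]
        have h3 : (k : ℝ) / (k + 1) ≤ 1 := by
          rw [div_le_one (by positivity)]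
          linarith
        nlinarith
      linarith
  set θ := δ + √(2 * δ) + 3 * ε with hθ
  have hsq : 0 ≤ √(2 * δ) := Real.sqrt_nonneg _
  have hθ0 : 0 ≤ θ := by positivity
  obtain ⟨t₀, ht₀, hA⟩ := cvA_approx κ hR.sml hℓ hε
  have hA : Apx κ ρ ℓ ε t₀ := hA
  set s₀ := min t₀ (min ℓ ρ) with hs₀
  have hs₀0 : 0 < s₀ := lt_min ht₀ (lt_min hℓ hR.pos)
  have step : ∀ x ∈ ball p (min r s), ∀ i, ∀ u : ℝ, |u| ≤ s₀ → ∃ z, dist x z ≤ |u| ∧
      |stm a z i - stm a x i - u| ≤ θ * |u| ∧ ∀ j, j ≠ i → |stm a z j - stm a x j| ≤ θ * |u| := by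
    intro x hx i u hu
    obtain ⟨hSx, hℓa, hℓb⟩ := hU x (ball_subset_ball (min_le_left _ _) hx)
    rcases eq_or_ne u 0 with hu0 | hu0
    · subst hu0
      refine ⟨x, by simp, by simp, fun j _ => by simp⟩
    have hupos : 0 < |u| := abs_pos.2 hu0
    have hut : |u| ≤ t₀ := hu.trans (min_le_left _ _)
    have huℓ : |u| ≤ ℓ := hu.trans ((min_le_right _ _).trans (min_le_left _ _))
    have huρ : |u| ≤ ρ := hu.trans ((min_le_right _ _).trans (min_le_right _ _))
    -- estimates valid for every `z` at distance `|u|`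
    have main : ∀ z, dist x z = |u| → ∀ j, DD x (a j) z ≤ δ + ε → DD x (b j) z ≤ δ + ε →
        |stm a z j - stm a x j| ≤ θ * |u| := by
      intro z hz j h1 h2
      have hxz : x ≠ z := dist_pos.1 (by rw [hz]; exact hupos)
      have h3 := hR.sum_DD hA hℓ hδ (hℓa j) (hℓb j) (hSx.haρ j).le (hSx.hbρ j).le (hSx.opp j).le
        hxz (by rw [hz]; exact hut) (by rw [hz]; exact huρ)
      have h4 : |DD x (a j) z| ≤ θ := by
        rw [abs_le]
        constructor
        · rw [hθ]; linarith
        · rw [hθ]; linarith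
      unfold stm
      rw [DD_mul hxz, abs_neg, abs_mul, abs_of_nonneg dist_nonneg, hz, mul_comm]
      exact mul_le_mul_of_nonneg_right h4 hupos.le
    rcases lt_or_gt_of_ne hu0 with hneg | hpos
    · -- towards `a i`
      obtain ⟨z, hz1, hz2⟩ := hR.geo x (a i) |u| (dist x (a i) - |u|) hupos.le
        (by linarith [hℓa i]) (by ring)
      have hxz : x ≠ z := dist_pos.1 (by rw [hz1]; exact hupos)
      have hsum : dist x z + dist z (a i) = dist x (a i) := by rw [hz1, hz2]; ring
      refine ⟨z, hz1.le, ?_, fun j hj => main z hz1 j ?_ ?_⟩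
      · unfold stm
        rw [hz2, abs_of_neg hneg]
        rw [show dist x (a i) - -u - dist x (a i) - u = 0 by ring, abs_zero]
        exact mul_nonneg hθ0 (by linarith)
      · have := hR.DD_le hA hℓ (hℓa j) (hSx.haρ j).le (hSx.haρ i).le hxz (by rw [hz1]; exact hut) hsum
        linarith [hSx.aa j i hj]
      · have := hR.DD_le hA hℓ (hℓb j) (hSx.hbρ j).le (hSx.haρ i).le hxz (by rw [hz1]; exact hut) hsum
        rw [cc_comm] at this
        linarith [hSx.ab i j hj.symm]
    · -- towards `b i`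
      obtain ⟨z, hz1, hz2⟩ := hR.geo x (b i) |u| (dist x (b i) - |u|) hupos.le
        (by linarith [hℓb i]) (by ring)
      have hxz : x ≠ z := dist_pos.1 (by rw [hz1]; exact hupos)
      have hsum : dist x z + dist z (b i) = dist x (b i) := by rw [hz1, hz2]; ring
      refine ⟨z, hz1.le, ?_, fun j hj => main z hz1 j ?_ ?_⟩
      · have h1 := hR.DD_le hA hℓ (hℓa i) (hSx.haρ i).le (hSx.hbρ i).le hxz
          (by rw [hz1]; exact hut) hsum
        have h2 := hSx.opp i
        have h3 := (abs_le.1 (abs_DD_le x (a i) z)).1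
        unfold stm
        rw [DD_mul hxz, hz1, abs_of_pos hpos]
        rw [show -(u * DD x (a i) z) - u = -(u * (DD x (a i) z + 1)) by ring, abs_neg, abs_mul,
          abs_of_pos hpos, abs_of_nonneg (by linarith : 0 ≤ DD x (a i) z + 1), mul_comm]
        refine mul_le_mul_of_nonneg_right ?_ hpos.le
        rw [hθ]
        linarith
      · have := hR.DD_le hA hℓ (hℓa j) (hSx.haρ j).le (hSx.hbρ i).le hxz (by rw [hz1]; exact hut) hsum
        linarith [hSx.ab j i hj]
      · have := hR.DD_le hA hℓ (hℓb j) (hSx.hbρ j).le (hSx.hbρ i).le hxz (by rw [hz1]; exact hut) hsum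
        linarith [hSx.bb j i hj]
  have hr' : 0 < min r s := lt_min hr hs
  obtain ⟨c, hc, hc1, hc2⟩ : ∃ c > 0, k * c ≤ s₀ ∧ 2 * k * (k * c) < min r s := by
    refine ⟨min (s₀ / (k + 1)) (min r s / (2 * k * k + 1)), by positivity, ?_, ?_⟩
    · calc (k : ℝ) * min (s₀ / (k + 1)) (min r s / (2 * k * k + 1)) ≤ k * (s₀ / (k + 1)) :=
            mul_le_mul_of_nonneg_left (min_le_left _ _) (by positivity)
        _ = (k / (k + 1)) * s₀ := by ring
        _ ≤ 1 * s₀ := mul_le_mul_of_nonneg_right (by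
            rw [div_le_one (by positivity)]; linarith) hs₀0.le
        _ = s₀ := one_mul _
    · calc 2 * (k : ℝ) * (k * min (s₀ / (k + 1)) (min r s / (2 * k * k + 1)))
          ≤ 2 * k * (k * (min r s / (2 * k * k + 1))) := by
            refine mul_le_mul_of_nonneg_left (mul_le_mul_of_nonneg_left (min_le_right _ _)
              (by positivity)) (by positivity)
        _ = (2 * k * k / (2 * k * k + 1)) * min r s := by ring
        _ < 1 * min r s := mul_lt_mul_of_pos_right (by
            rw [div_lt_one (by positivity)]; linarith) hr'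
        _ = min r s := one_mul _
  refine ⟨c, hc, fun v hv => ?_⟩
  have hsum : ∑ i, |v i - stm a p i| ≤ k * c := by
    have h1 : ∀ i ∈ Finset.univ, |v i - stm a p i| ≤ c := fun i _ => by
      have := (dist_le_pi_dist v (stm a p) i).trans (mem_ball.1 hv).le
      rwa [Real.dist_eq] at this
    have := Finset.sum_le_card_nsmul Finset.univ _ _ h1
    simpa using this
  obtain ⟨x, hx, hxv⟩ := exists_eq_of_step (f := stm a) (lipschitz_stm a).continuous hθ0 hkε step
    (v := v) (hsum.trans hc1) (lt_of_le_of_lt (mul_le_mul_of_nonneg_left hsum (by positivity)) hc2) hr'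
  exact ⟨x, ball_subset_ball (min_le_right _ _) hx, hxv⟩

/-- **G5: the maximal strainer is a chart.** -/
theorem chart_of_isStr (hR : Rad M κ ρ) {δ δ' : ℝ} {k : ℕ} {a b : Fin k → M} {p : M}
    (hS : IsStr κ ρ δ a b p) (hδ : 0 ≤ δ) (hδδ' : δ ≤ δ') (hδ' : 2 * √(2 * δ) < δ')
    (hmax : ∀ (a' b' : Fin (k + 1) → M) (q : M), ¬ IsStr κ ρ δ' a' b' q) :
    ∃ r > 0, ∃ L > 0, ∀ x ∈ ball p r, ∀ y ∈ ball p r, dist x y ≤ L * dist (stm a x) (stm a y) := by
  obtain ⟨r, hr, ℓ, hℓ, hU⟩ := exists_unif hR.sml hS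
  set ε := (δ' - 2 * √(2 * δ)) / 16 with hεd
  have hε : 0 < ε := by rw [hεd]; linarith
  have hδ'0 : 0 < δ' := by linarith [Real.sqrt_nonneg (2 * δ)]
  obtain ⟨t₀, ht₀, hA⟩ := cvA_approx κ hR.sml hℓ hε
  have hA : Apx κ ρ ℓ ε t₀ := hA
  set r₁ := min (r / 2) (min t₀ ρ) with hr₁
  have hρ := hR.pos
  have hr₁0 : 0 < r₁ := lt_min (by linarith) (lt_min ht₀ hρ)
  refine ⟨r₁, hr₁0, 1 / ε, by positivity, fun x hx y hy => ?_⟩
  by_contra hcon
  push Not at hcon
  have hxy : 0 < dist x y := lt_of_le_of_lt (by positivity) hcon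
  have hd : dist (stm a x) (stm a y) < ε * dist x y := by
    rw [one_div, inv_mul_lt_iff₀ hε] at hcon
    exact hcon
  have hd' : ∀ i, |dist x (a i) - dist y (a i)| ≤ ε * dist x y := fun i => by
    have := (dist_le_pi_dist (stm a x) (stm a y) i).trans hd.le
    rwa [Real.dist_eq] at this
  -- the midpoint
  obtain ⟨q, hq1, hq2⟩ := hR.geo x y (dist x y / 2) (dist x y / 2) (by positivity) (by positivity)
    (by ring)
  have hxyr : dist x y < 2 * r₁ := by
    have := dist_triangle x p y
    rw [mem_ball] at hx hy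
    rw [dist_comm p y] at this
    linarith
  have hrr : r₁ ≤ r / 2 := min_le_left _ _
  have hrt : r₁ ≤ t₀ := (min_le_right _ _).trans (min_le_left _ _)
  have hrρ : r₁ ≤ ρ := (min_le_right _ _).trans (min_le_right _ _)
  have hxr : x ∈ ball p r := ball_subset_ball (by linarith) hx
  have hyr : y ∈ ball p r := ball_subset_ball (by linarith) hy
  have hqr : q ∈ ball p r := by
    rw [mem_ball] at hx ⊢
    have := dist_triangle q x p
    rw [dist_comm q x] at this
    linarith
  obtain ⟨hSx, hax, hbx⟩ := hU x hxr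
  obtain ⟨hSy, hay, hby⟩ := hU y hyr
  obtain ⟨hSq, haq, hbq⟩ := hU q hqr
  have hqx : q ≠ x := dist_pos.1 (by rw [dist_comm, hq1]; positivity)
  have hqy : q ≠ y := dist_pos.1 (by rw [hq2]; positivity)
  have hqx' : dist q x = dist x y / 2 := by rw [dist_comm]; exact hq1
  have hmid : dist x q + dist q y = dist x y := by rw [hq1, hq2]; ring
  have hη : 0 ≤ √(2 * δ) := Real.sqrt_nonneg _
  -- the difference quotients at `q`
  have est : ∀ i, DD q (a i) x ≤ 2 * √(2 * δ) + 8 * ε ∧ DD q (a i) y ≤ 2 * √(2 * δ) + 8 * ε ∧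
      DD q (b i) x ≤ 2 * √(2 * δ) + 8 * ε ∧ DD q (b i) y ≤ 2 * √(2 * δ) + 8 * ε := by
    intro i
    have c1 := hR.DD_add hA hℓ (haq i) (hSq.haρ i).le hqx hqy (by linarith) (by linarith)
      (by linarith) (by linarith) hmid
    have c2 := hR.DD_add hA hℓ (hbq i) (hSq.hbρ i).le hqx hqy (by linarith) (by linarith)
      (by linarith) (by linarith) hmid
    have c3 := hR.sum_DD hA hℓ hδ (hax i) (hbx i) (hSx.haρ i).le (hSx.hbρ i).le (hSx.opp i).le
      hqx.symm (by linarith) (by linarith)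
    have c4 := hR.sum_DD hA hℓ hδ (hay i) (hby i) (hSy.haρ i).le (hSy.hbρ i).le (hSy.opp i).le
      hqy.symm (by rw [dist_comm]; linarith) (by rw [dist_comm]; linarith)
    rw [DD_swap q (a i) x, DD_swap q (b i) x] at c3
    rw [DD_swap q (a i) y, DD_swap q (b i) y] at c4
    have c5 : |DD q (a i) x - DD q (a i) y| ≤ 2 * ε := by
      have e : DD q (a i) x - DD q (a i) y = (dist y (a i) - dist x (a i)) / (dist x y / 2) := by
        unfold DD
        rw [hqx', hq2]
        field_simp
        ring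
      rw [e, abs_div, abs_of_pos (by positivity : 0 < dist x y / 2), div_le_iff₀ (by positivity),
        abs_sub_comm]
      linarith [hd' i]
    have c6 := abs_le.1 c5
    refine ⟨?_, ?_, ?_, ?_⟩ <;> linarith
  have est' : ∀ i, cc κ q (a i) x < δ' ∧ cc κ q (a i) y < δ' ∧ cc κ q (b i) x < δ' ∧
      cc κ q (b i) y < δ' := by
    intro i
    obtain ⟨e1, e2, e3, e4⟩ := est i
    have hb' : 2 * √(2 * δ) + 9 * ε < δ' := by rw [hεd]; linarith
    have f1 := (abs_le.1 (hA.abs_le (haq i) (hSq.haρ i).le hqx (by linarith))).2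
    have f2 := (abs_le.1 (hA.abs_le (haq i) (hSq.haρ i).le hqy (by linarith))).2
    have f3 := (abs_le.1 (hA.abs_le (hbq i) (hSq.hbρ i).le hqx (by linarith))).2
    have f4 := (abs_le.1 (hA.abs_le (hbq i) (hSq.hbρ i).le hqy (by linarith))).2
    refine ⟨?_, ?_, ?_, ?_⟩ <;> linarith
  refine hmax (Fin.cons x a) (Fin.cons y b) q ⟨?_, ?_, ?_, ?_, ?_, ?_, ?_, ?_⟩
  · intro i
    refine Fin.cases ?_ (fun i => ?_) i
    · exact hqx
    · exact hSq.ha i
  · intro i
    refine Fin.cases ?_ (fun i => ?_) i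
    · exact hqy
    · exact hSq.hb i
  · intro i
    refine Fin.cases ?_ (fun i => ?_) i
    · rw [Fin.cons_zero]; linarith
    · exact hSq.haρ i
  · intro i
    refine Fin.cases ?_ (fun i => ?_) i
    · rw [Fin.cons_zero]; linarith
    · exact hSq.hbρ i
  · intro i
    refine Fin.cases ?_ (fun i => ?_) i
    · rw [Fin.cons_zero, Fin.cons_zero, cc_antipode hR.sml (by rw [hqx', hq2]) hqx
        (by rw [hqx']; ring) (by linarith)]
      linarith
    · exact (hSq.opp i).trans_le (by linarith)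
  · intro i j
    refine Fin.cases ?_ (fun i => ?_) i
    · refine Fin.cases (fun h => absurd rfl h) (fun j _ => ?_) j
      rw [Fin.cons_zero, Fin.cons_succ, cc_comm]
      exact (est' j).1
    · refine Fin.cases (fun _ => ?_) (fun j hij => ?_) j
      · rw [Fin.cons_zero, Fin.cons_succ]
        exact (est' i).1
      · exact (hSq.aa i j fun h => hij (congrArg _ h)).trans_le hδδ'
  · intro i j
    refine Fin.cases ?_ (fun i => ?_) i
    · refine Fin.cases (fun h => absurd rfl h) (fun j _ => ?_) j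
      rw [Fin.cons_zero, Fin.cons_succ, cc_comm]
      exact (est' j).2.2.1
    · refine Fin.cases (fun _ => ?_) (fun j hij => ?_) j
      · rw [Fin.cons_zero, Fin.cons_succ]
        exact (est' i).2.1
      · exact (hSq.ab i j fun h => hij (congrArg _ h)).trans_le hδδ'
  · intro i j
    refine Fin.cases ?_ (fun i => ?_) i
    · refine Fin.cases (fun h => absurd rfl h) (fun j _ => ?_) j
      rw [Fin.cons_zero, Fin.cons_succ, cc_comm]
      exact (est' j).2.2.2
    · refine Fin.cases (fun _ => ?_) (fun j hij => ?_) j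
      · rw [Fin.cons_zero, Fin.cons_succ]
        exact (est' i).2.2.2
      · exact (hSq.bb i j fun h => hij (congrArg _ h)).trans_le hδδ'

end Vale.Agent.P233.Str
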